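import Vale.Agent.P125.Chain

namespace Vale.Agent.P125

open Finset

variable {S : Type*} [Fintype S] [DecidableEq S]

lemma val_add (x y : ℕ → ℝ) : ∀ (l : List (ℕ × ℕ × Bool)),
    val (fun i => x i + y i) l = val x l + val y l
  | [] => by simp [val]
  | (s, e, b) :: l => by
    simp only [val, val_add x y l]
    cases b <;> simp <;> ring

lemma W_add (n K : ℕ) (x y : ℕ → ℝ) :
    W n K (fun i => x i + y i) ≤ W n K x + W n K y := by
  refine csSup_le (ne_Ls n K _) ?_
  rintro _ ⟨l, hl, rfl⟩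
  rw [val_add]
  exact add_le_add (le_csSup (bdd_Ls n K x) ⟨_, hl, rfl⟩) (le_csSup (bdd_Ls n K y) ⟨_, hl, rfl⟩)

lemma W_triangle (n K : ℕ) (a b c : ℕ → ℝ) :
    W n K (fun i => a i - c i) ≤ W n K (fun i => a i - b i) + W n K (fun i => b i - c i) := by
  have h : (fun i => a i - c i) = (fun i => (a i - b i) + (b i - c i)) := by
    funext i; ring
  rw [h]
  exact W_add n K _ _

lemma good_pow_all {π : S → ℝ} {n : ℕ} {F : S → ℕ → ℝ} {P : Matrix S S ℝ}
    (hM : Good π n F P 1) (t : ℕ) : Good π n F (P ^ t) (t : ℝ) := by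
  induction t with
  | zero =>
    refine ⟨?_, ?_, ?_, ?_⟩
    · intro x y
      rw [pow_zero, Matrix.one_apply]
      split_ifs <;> norm_num
    · intro x
      simp [Matrix.one_apply]
    · intro x y
      rw [pow_zero]
      by_cases h : x = y
      · subst h; rfl
      · rw [Matrix.one_apply_ne h, Matrix.one_apply_ne (Ne.symm h)]; simp
    · intro x y h
      rw [pow_zero] at h
      by_cases hxy : x = y
      · subst hxy; simp [tv]
      · exact absurd (Matrix.one_apply_ne hxy) h
  | succ t ih =>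
    refine ⟨?_, ?_, ?_, ?_⟩
    · intro x y
      rw [pow_succ, Matrix.mul_apply]
      exact Finset.sum_nonneg (fun z _ => mul_nonneg (ih.nonneg _ _) (hM.nonneg _ _))
    · intro x
      rw [pow_succ]
      simp only [Matrix.mul_apply]
      rw [Finset.sum_comm]
      have : ∀ z, ∑ y, (P ^ t) x z * P z y = (P ^ t) x z := by
        intro z
        rw [← Finset.mul_sum, hM.row, mul_one]
      simp only [this]
      exact ih.row x
    · intro x y
      conv_lhs => rw [pow_succ]
      conv_rhs => rw [pow_succ']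
      rw [Matrix.mul_apply, Matrix.mul_apply, Finset.mul_sum, Finset.mul_sum]
      refine Finset.sum_congr rfl (fun z _ => ?_)
      have h1 := ih.rev x z
      have h2 := hM.rev z y
      calc π x * ((P ^ t) x z * P z y) = (π x * (P ^ t) x z) * P z y := by ring
        _ = (π z * (P ^ t) z x) * P z y := by rw [h1]
        _ = (π z * P z y) * (P ^ t) z x := by ring
        _ = (π y * P y z) * (P ^ t) z x := by rw [h2]
        _ = π y * (P y z * (P ^ t) z x) := by ring
    · intro x y h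
      rw [pow_succ, Matrix.mul_apply] at h
      obtain ⟨z, _, hz⟩ := Finset.exists_ne_zero_of_sum_ne_zero h
      have h1 : (P ^ t) x z ≠ 0 := left_ne_zero_of_mul hz
      have h2 : P z y ≠ 0 := right_ne_zero_of_mul hz
      have h3 := tv_sub_add n (F y) (F z) (F x)
      have h4 := ih.supp _ _ h1
      have h5 := hM.supp _ _ h2
      push_cast
      linarith

lemma stationary {π : S → ℝ} {n : ℕ} {F : S → ℕ → ℝ} {Q : Matrix S S ℝ} {B : ℝ}
    (hQ : Good π n F Q B) (z : S) : ∑ x, π x * Q x z = π z := by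
  have : ∀ x, π x * Q x z = π z * Q z x := fun x => hQ.rev x z
  simp only [this]
  rw [← Finset.mul_sum, hQ.row, mul_one]

lemma mQ_mul_le {π : S → ℝ} {n : ℕ} {F : S → ℕ → ℝ} {Q R : Matrix S S ℝ} {B C : ℝ}
    (hπ : ∀ x, 0 ≤ π x) (hQ : Good π n F Q B) (hR : Good π n F R C) (K : ℕ) :
    mQ π n F (Q * R) K ≤ mQ π n F Q K + mQ π n F R K := by
  unfold mQ
  have h1 : ∑ x, ∑ y, π x * (Q * R) x y * W n K (fun i => F y i - F x i)
      ≤ ∑ x, ∑ y, ∑ z, (π x * Q x z * R z y) *
        (W n K (fun i => F y i - F z i) + W n K (fun i => F z i - F x i)) := by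
    refine Finset.sum_le_sum (fun x _ => Finset.sum_le_sum (fun y _ => ?_))
    rw [Matrix.mul_apply, Finset.mul_sum, Finset.sum_mul]
    refine Finset.sum_le_sum (fun z _ => ?_)
    have hnn : 0 ≤ π x * Q x z * R z y :=
      mul_nonneg (mul_nonneg (hπ x) (hQ.nonneg x z)) (hR.nonneg z y)
    have := mul_le_mul_of_nonneg_left (W_triangle n K (F y) (F z) (F x)) hnn
    calc π x * (Q x z * R z y) * W n K (fun i => F y i - F x i)
        = π x * Q x z * R z y * W n K (fun i => F y i - F x i) := by ring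
      _ ≤ _ := this
  refine h1.trans (le_of_eq ?_)
  have h2 : ∀ x y z, (π x * Q x z * R z y) *
        (W n K (fun i => F y i - F z i) + W n K (fun i => F z i - F x i))
      = (π x * Q x z * R z y) * W n K (fun i => F y i - F z i)
        + (π x * Q x z * R z y) * W n K (fun i => F z i - F x i) := by
    intro x y z; ring
  simp only [h2, Finset.sum_add_distrib]
  have hA : ∑ x, ∑ y, ∑ z, (π x * Q x z * R z y) * W n K (fun i => F y i - F z i)
      = ∑ z, ∑ a, π z * R z a * W n K (fun i => F a i - F z i) := by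
    calc ∑ x, ∑ y, ∑ z, (π x * Q x z * R z y) * W n K (fun i => F y i - F z i)
        = ∑ y, ∑ x, ∑ z, (π x * Q x z * R z y) * W n K (fun i => F y i - F z i) :=
          Finset.sum_comm
      _ = ∑ y, ∑ z, ∑ x, (π x * Q x z * R z y) * W n K (fun i => F y i - F z i) :=
          Finset.sum_congr rfl (fun y _ => Finset.sum_comm)
      _ = ∑ z, ∑ y, ∑ x, (π x * Q x z * R z y) * W n K (fun i => F y i - F z i) :=
          Finset.sum_comm
      _ = _ := by
          refine Finset.sum_congr rfl (fun z _ => Finset.sum_congr rfl (fun y _ => ?_))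
          have : ∀ x, (π x * Q x z * R z y) * W n K (fun i => F y i - F z i)
              = (π x * Q x z) * (R z y * W n K (fun i => F y i - F z i)) := by
            intro x; ring
          simp only [this]
          rw [← Finset.sum_mul, stationary hQ z]
          ring
  have hB : ∑ x, ∑ y, ∑ z, (π x * Q x z * R z y) * W n K (fun i => F z i - F x i)
      = ∑ x, ∑ z, π x * Q x z * W n K (fun i => F z i - F x i) := by
    refine Finset.sum_congr rfl (fun x _ => ?_)
    rw [Finset.sum_comm]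
    refine Finset.sum_congr rfl (fun z _ => ?_)
    have : ∀ y, (π x * Q x z * R z y) * W n K (fun i => F z i - F x i)
        = (π x * Q x z * W n K (fun i => F z i - F x i)) * R z y := by
      intro y; ring
    simp only [this]
    rw [← Finset.mul_sum, hR.row, mul_one]
  rw [hA, hB]
  ring

lemma four_pow_add_le {a b : ℝ} : (a + b) ^ 4 ≤ 8 * (a ^ 4 + b ^ 4) := by
  have h1 : (a + b) ^ 2 ≤ 2 * (a ^ 2 + b ^ 2) := by nlinarith [sq_nonneg (a - b)]
  have h2 : (a ^ 2 + b ^ 2) ^ 2 ≤ 2 * (a ^ 4 + b ^ 4) := by nlinarith [sq_nonneg (a ^ 2 - b ^ 2)]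
  have h3 : ((a + b) ^ 2) ^ 2 ≤ (2 * (a ^ 2 + b ^ 2)) ^ 2 :=
    pow_le_pow_left₀ (sq_nonneg _) h1 2
  nlinarith

/-- The estimate at all times. -/
theorem all_times_bound (π : S → ℝ) (P : Matrix S S ℝ) (hπ : ∀ x, 0 ≤ π x) (hπ1 : ∑ x, π x = 1)
    (hP : ∀ x y, 0 ≤ P x y) (hP1 : ∀ x, ∑ y, P x y = 1)
    (hrev : ∀ x y, π x * P x y = π y * P y x) (n : ℕ) (F : S → ℕ → ℝ)
    (hF : ∀ x y, P x y ≠ 0 → tv n (fun i => F y i - F x i) ≤ 1) (t J : ℕ) (hJ : 4 ^ J ≤ t) :
    (J : ℝ) * (∑ x, ∑ y, π x * (P ^ t) x y * osc n (fun i => F y i - F x i)) ^ 4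
      ≤ 520 * (t : ℝ) ^ 4 := by
  have hM : Good π n F P 1 := ⟨hP, hP1, hrev, hF⟩
  set a : ℕ → ℝ := fun u => mQ π n F (P ^ u) 1 with ha
  have hadd : ∀ u v, a (u + v) ≤ a u + a v := by
    intro u v
    simp only [ha, pow_add]
    exact mQ_mul_le hπ (good_pow_all hM u) (good_pow_all hM v) 1
  have hle : ∀ u, a u ≤ u := fun u => mQ_le hπ hπ1 (good_pow_all hM u) 1
  have ha0 : ∀ u, 0 ≤ a u := fun u => mQ_nonneg hπ (good_pow_all hM u) 1
  set d : ℕ := 2 ^ J with hd
  have hdpos : 0 < d := by positivity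
  have hdR : (0 : ℝ) < d := by exact_mod_cast hdpos
  have hmulle : ∀ r, a (r * d) ≤ r * a d := by
    intro r
    induction r with
    | zero => simpa using (show a 0 ≤ 0 by simpa using hle 0)
    | succ r ih =>
      have h1 : (r + 1) * d = r * d + d := by ring
      rw [h1]
      have h2 := hadd (r * d) d
      push_cast
      linarith
  set r : ℕ := t / d with hr
  set s : ℕ := t % d with hs
  have htd : r * d + s = t := by
    rw [hr, hs, mul_comm]
    exact Nat.div_add_mod t d
  have hsd : s < d := Nat.mod_lt _ hdpos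
  have hat : a t ≤ r * a d + s := by
    rw [← htd]
    have h1 := hadd (r * d) s
    have h2 := hmulle r
    have h3 := hle s
    linarith
  set X : ℝ := a d / d with hX
  have hX0 : 0 ≤ X := div_nonneg (ha0 d) hdR.le
  have hadX : a d = d * X := by rw [hX]; field_simp
  have htR : (0 : ℝ) < t := by
    have : 0 < 4 ^ J := by positivity
    exact_mod_cast lt_of_lt_of_le this hJ
  have hrd : (r : ℝ) * d ≤ t := by
    have : r * d ≤ t := by omega
    exact_mod_cast this
  have hdd : (d : ℝ) * d ≤ t := by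
    have h1 : d * d = 4 ^ J := by
      rw [hd, ← mul_pow]
      norm_num
    have h2 : d * d ≤ t := h1 ▸ hJ
    exact_mod_cast h2
  have hdt : (d : ℝ) ≤ t * (1 / d) := by
    rw [mul_one_div, le_div_iff₀ hdR]
    exact hdd
  have hsR : (s : ℝ) ≤ d := by exact_mod_cast hsd.le
  have hat2 : a t ≤ t * (X + 1 / d) := by
    have h1 : (r : ℝ) * a d ≤ t * X := by
      rw [hadX, ← mul_assoc]
      exact mul_le_mul_of_nonneg_right hrd hX0
    calc a t ≤ r * a d + s := hat
      _ ≤ t * X + t * (1 / d) := by linarith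
      _ = _ := by ring
  have hkey : (J : ℝ) * X ^ 4 ≤ 64 := by
    have := key_bound π P hπ hπ1 hM J
    have hcast : ((2 : ℝ) ^ J) = (d : ℝ) := by rw [hd]; push_cast; rfl
    rw [hcast] at this
    exact this
  have hJd : (J : ℝ) * (1 / (d : ℝ)) ^ 4 ≤ 1 := by
    have h1 : (J : ℝ) ≤ d := by
      have : J < 2 ^ J := Nat.lt_two_pow_self
      exact_mod_cast this.le
    have h2 : (1 : ℝ) ≤ d := by exact_mod_cast hdpos
    have h3 : (d : ℝ) ≤ (d : ℝ) ^ 4 := by
      have := pow_le_pow_right₀ h2 (show 1 ≤ 4 by norm_num)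
      simpa using this
    rw [one_div, inv_pow, ← div_eq_mul_inv, div_le_one (by positivity)]
    exact h1.trans h3
  have hfac : (J : ℝ) * (X + 1 / d) ^ 4 ≤ 520 := by
    have h1 := four_pow_add_le (a := X) (b := 1 / (d : ℝ))
    have hJ0 : (0 : ℝ) ≤ J := Nat.cast_nonneg _
    have h2 := mul_le_mul_of_nonneg_left h1 hJ0
    nlinarith
  have hg := good_pow_all hM t
  have hE0 : 0 ≤ ∑ x, ∑ y, π x * (P ^ t) x y * osc n (fun i => F y i - F x i) :=
    Finset.sum_nonneg (fun x _ => Finset.sum_nonneg (fun y _ =>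
      mul_nonneg (mul_nonneg (hπ x) (hg.nonneg x y)) (osc_nonneg _ _)))
  have hE1 : ∑ x, ∑ y, π x * (P ^ t) x y * osc n (fun i => F y i - F x i) ≤ a t :=
    Finset.sum_le_sum (fun x _ => Finset.sum_le_sum (fun y _ =>
      mul_le_mul_of_nonneg_left (osc_le_W _ _) (mul_nonneg (hπ x) (hg.nonneg x y))))
  have hE3 := pow_le_pow_left₀ hE0 (hE1.trans hat2) 4
  calc (J : ℝ) * (∑ x, ∑ y, π x * (P ^ t) x y * osc n (fun i => F y i - F x i)) ^ 4
      ≤ (J : ℝ) * ((t : ℝ) * (X + 1 / d)) ^ 4 :=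
        mul_le_mul_of_nonneg_left hE3 (Nat.cast_nonneg _)
    _ = ((J : ℝ) * (X + 1 / d) ^ 4) * (t : ℝ) ^ 4 := by ring
    _ ≤ 520 * (t : ℝ) ^ 4 := mul_le_mul_of_nonneg_right hfac (by positivity)

end Vale.Agent.P125
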