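import Mathlib

namespace Vale.Agent.P125

open Finset

lemma abs_pair_ineq {u v B : ℝ} (hu : |u| ≤ B) (hv : |v| ≤ B) :
    B * |v - u| ≤ B * (|u| + |v|) - 2 * (max u 0 * max v 0 + max (-u) 0 * max (-v) 0) := by
  rcases le_total 0 u with h1 | h1 <;> rcases le_total 0 v with h2 | h2
  · rw [max_eq_left h1, max_eq_left h2, max_eq_right (by linarith), max_eq_right (by linarith),
      abs_of_nonneg h1, abs_of_nonneg h2]
    rw [abs_of_nonneg h1] at hu
    rw [abs_of_nonneg h2] at hv
    rcases abs_cases (v - u) with ⟨h3, h4⟩ | ⟨h3, h4⟩ <;> rw [h3]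
    · nlinarith [mul_nonneg h1 (sub_nonneg.2 hv)]
    · nlinarith [mul_nonneg h2 (sub_nonneg.2 hu)]
  · rw [max_eq_left h1, max_eq_right h2, max_eq_right (by linarith), max_eq_left (by linarith),
      abs_of_nonneg h1, abs_of_nonpos h2, abs_of_nonpos (by linarith)]
    nlinarith
  · rw [max_eq_right h1, max_eq_left h2, max_eq_left (by linarith), max_eq_right (by linarith),
      abs_of_nonpos h1, abs_of_nonneg h2, abs_of_nonneg (by linarith)]
    nlinarith
  · rw [max_eq_right h1, max_eq_right h2, max_eq_left (by linarith), max_eq_left (by linarith),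
      abs_of_nonpos h1, abs_of_nonpos h2]
    rw [abs_of_nonpos h1] at hu
    rw [abs_of_nonpos h2] at hv
    rcases abs_cases (v - u) with ⟨h3, h4⟩ | ⟨h3, h4⟩ <;> rw [h3]
    · nlinarith [mul_nonneg (neg_nonneg.2 h2) (sub_nonneg.2 hu)]
    · nlinarith [mul_nonneg (neg_nonneg.2 h1) (sub_nonneg.2 hv)]

lemma max_pair_eq (a b c d : ℝ) :
    2 * max (a + d) (c + b) = (a + c) + (b + d) + |(a - c) - (b - d)| := by
  rcases le_total (a + d) (c + b) with h | h
  · rw [max_eq_right h, abs_of_nonpos (by linarith)]; ring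
  · rw [max_eq_left h, abs_of_nonneg (by linarith)]; ring

lemma max_eq_half (a b : ℝ) : 2 * max a b = a + b + |a - b| := by
  rcases le_total a b with h | h
  · rw [max_eq_right h, abs_of_nonpos (by linarith)]; ring
  · rw [max_eq_left h, abs_of_nonneg (by linarith)]; ring

/-- The core finite-probability lemma. -/
lemma core {α : Type*} [Fintype α] (q f g : α → ℝ) (B : ℝ) (hB : 0 < B) (hq : ∀ x, 0 ≤ q x)
    (hq1 : ∑ x, q x = 1) (hfg : ∀ x, q x ≠ 0 → |f x - g x| ≤ B) :
    ∑ x, ∑ y, q x * q y * max (f y + g x) (g y + f x)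
      ≤ 2 * ∑ x, q x * max (f x) (g x) - (∑ x, q x * |f x - g x|) ^ 2 / (2 * B) := by
  set d : α → ℝ := fun x => f x - g x with hd
  set E := ∑ x, q x * |d x| with hE
  set A := ∑ x, q x * max (d x) 0 with hA
  set C := ∑ x, q x * max (-d x) 0 with hC
  have hAC : A + C = E := by
    rw [hA, hC, hE, ← Finset.sum_add_distrib]
    refine Finset.sum_congr rfl (fun x _ => ?_)
    rcases le_total 0 (d x) with h | h
    · rw [max_eq_left h, max_eq_right (by linarith), abs_of_nonneg h]; ring
    · rw [max_eq_right h, max_eq_left (by linarith), abs_of_nonpos h]; ring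
  have hdouble : ∀ (h k : α → ℝ), ∑ x, ∑ y, q x * q y * (h x * k y) =
      (∑ x, q x * h x) * ∑ y, q y * k y := by
    intro h k
    rw [Finset.sum_mul_sum]
    refine Finset.sum_congr rfl (fun x _ => Finset.sum_congr rfl (fun y _ => by ring))
  have h1x : ∀ (h : α → ℝ), ∑ x, ∑ y, q x * q y * h x = ∑ x, q x * h x := by
    intro h
    have := hdouble h (fun _ => 1)
    simp only [mul_one] at this
    rw [this, hq1, mul_one]
  have h1y : ∀ (h : α → ℝ), ∑ x, ∑ y, q x * q y * h y = ∑ y, q y * h y := by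
    intro h
    have := hdouble (fun _ => 1) h
    simp only [mul_one, one_mul] at this
    rw [this, hq1, one_mul]
  -- the pointwise bound integrated
  have hptw : ∀ x y, q x * q y * (B * |d y - d x|) ≤ q x * q y *
      (B * (|d x| + |d y|) - 2 * (max (d x) 0 * max (d y) 0 + max (-d x) 0 * max (-d y) 0)) := by
    intro x y
    by_cases hx : q x = 0
    · simp [hx]
    by_cases hy : q y = 0
    · simp [hy]
    exact mul_le_mul_of_nonneg_left (abs_pair_ineq (hfg x hx) (hfg y hy))
      (mul_nonneg (hq x) (hq y))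
  have hsum : ∑ x, ∑ y, q x * q y * (B * |d y - d x|) ≤
      2 * B * E - 2 * (A ^ 2 + C ^ 2) := by
    have h2 : ∑ x, ∑ y, q x * q y * (B * |d y - d x|) ≤ ∑ x, ∑ y, q x * q y *
      (B * (|d x| + |d y|) - 2 * (max (d x) 0 * max (d y) 0 + max (-d x) 0 * max (-d y) 0)) :=
      Finset.sum_le_sum (fun x _ => Finset.sum_le_sum (fun y _ => hptw x y))
    have h3 : ∑ x, ∑ y, q x * q y *
      (B * (|d x| + |d y|) - 2 * (max (d x) 0 * max (d y) 0 + max (-d x) 0 * max (-d y) 0))
        = B * (∑ x, ∑ y, q x * q y * |d x|) + B * (∑ x, ∑ y, q x * q y * |d y|)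
          - 2 * (∑ x, ∑ y, q x * q y * (max (d x) 0 * max (d y) 0))
          - 2 * (∑ x, ∑ y, q x * q y * (max (-d x) 0 * max (-d y) 0)) := by
      simp only [Finset.mul_sum, ← Finset.sum_add_distrib, ← Finset.sum_sub_distrib]
      refine Finset.sum_congr rfl (fun x _ => Finset.sum_congr rfl (fun y _ => by ring))
    rw [h3, h1x (fun x => |d x|), h1y (fun y => |d y|),
      hdouble (fun x => max (d x) 0) (fun x => max (d x) 0),
      hdouble (fun x => max (-d x) 0) (fun x => max (-d x) 0)] at h2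
    have h4 : A ^ 2 = A * A := sq A
    have h5 : C ^ 2 = C * C := sq C
    rw [h4, h5]
    have : (∑ x, q x * |d x|) = E := rfl
    linarith
  -- rewriting the left side
  have hL : 2 * B * ∑ x, ∑ y, q x * q y * max (f y + g x) (g y + f x) =
      2 * B * ∑ x, q x * (f x + g x) + ∑ x, ∑ y, q x * q y * (B * |d y - d x|) := by
    have h6 : ∀ x y, 2 * B * (q x * q y * max (f y + g x) (g y + f x)) =
        B * (q x * q y * (f x + g x)) + B * (q x * q y * (f y + g y))
          + q x * q y * (B * |d y - d x|) := by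
      intro x y
      have := max_pair_eq (f y) (f x) (g y) (g x)
      have h7 : |f y - g y - (f x - g x)| = |d y - d x| := rfl
      rw [h7] at this
      calc 2 * B * (q x * q y * max (f y + g x) (g y + f x))
          = B * (q x * q y) * (2 * max (f y + g x) (g y + f x)) := by ring
        _ = _ := by rw [this]; ring
    have h8 : 2 * B * ∑ x, ∑ y, q x * q y * max (f y + g x) (g y + f x)
        = ∑ x, ∑ y, (B * (q x * q y * (f x + g x)) + B * (q x * q y * (f y + g y))
          + q x * q y * (B * |d y - d x|)) := by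
      rw [Finset.mul_sum]
      refine Finset.sum_congr rfl (fun x _ => ?_)
      rw [Finset.mul_sum]
      exact Finset.sum_congr rfl (fun y _ => h6 x y)
    rw [h8]
    simp only [Finset.sum_add_distrib]
    have e1 : ∑ x, ∑ y, B * (q x * q y * (f x + g x)) = B * ∑ x, q x * (f x + g x) := by
      rw [← h1x (fun x => f x + g x), Finset.mul_sum]
      exact Finset.sum_congr rfl (fun x _ => by rw [Finset.mul_sum])
    have e2 : ∑ x, ∑ y, B * (q x * q y * (f y + g y)) = B * ∑ x, q x * (f x + g x) := by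
      rw [← h1y (fun y => f y + g y), Finset.mul_sum]
      exact Finset.sum_congr rfl (fun x _ => by rw [Finset.mul_sum])
    rw [e1, e2]
    ring
  have hR : ∑ x, q x * (f x + g x) + E = 2 * ∑ x, q x * max (f x) (g x) := by
    rw [hE, ← Finset.sum_add_distrib, Finset.mul_sum]
    refine Finset.sum_congr rfl (fun x _ => ?_)
    have := max_eq_half (f x) (g x)
    have h9 : |d x| = |f x - g x| := rfl
    rw [h9]
    calc q x * (f x + g x) + q x * |f x - g x| = q x * (f x + g x + |f x - g x|) := by ring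
      _ = q x * (2 * max (f x) (g x)) := by rw [this]
      _ = _ := by ring
  have hsq : E ^ 2 ≤ 2 * (A ^ 2 + C ^ 2) := by
    rw [← hAC]
    nlinarith [sq_nonneg (A - C)]
  have h2B : 0 < 2 * B := by positivity
  have hgoal : 0 ≤ 2 * B * (2 * ∑ x, q x * max (f x) (g x) - E ^ 2 / (2 * B) -
      ∑ x, ∑ y, q x * q y * max (f y + g x) (g y + f x)) := by
    have h10 : 2 * B * (2 * ∑ x, q x * max (f x) (g x) - E ^ 2 / (2 * B) -
      ∑ x, ∑ y, q x * q y * max (f y + g x) (g y + f x))
        = 2 * B * (2 * ∑ x, q x * max (f x) (g x)) - E ^ 2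
          - 2 * B * ∑ x, ∑ y, q x * q y * max (f y + g x) (g y + f x) := by
      field_simp
    rw [h10, hL, ← hR]
    nlinarith
  have h11 := (mul_nonneg_iff_of_pos_left h2B).1 hgoal
  calc _ ≤ 2 * ∑ x, q x * max (f x) (g x) - E ^ 2 / (2 * B) := by linarith
    _ = _ := rfl

end Vale.Agent.P125
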