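import Vale.Agent.P125.Intervals
import Vale.Agent.P125.Core
import Vale.Agent.P125.Seq

namespace Vale.Agent.P125

open Finset

variable {S : Type*} [Fintype S] [DecidableEq S]

/-- A reversible transition matrix whose edges move the path by variation at most `B`. -/
structure Good (π : S → ℝ) (n : ℕ) (F : S → ℕ → ℝ) (Q : Matrix S S ℝ) (B : ℝ) : Prop where
  nonneg : ∀ x y, 0 ≤ Q x y
  row : ∀ x, ∑ y, Q x y = 1
  rev : ∀ x y, π x * Q x y = π y * Q y x
  supp : ∀ x y, Q x y ≠ 0 → tv n (fun i => F y i - F x i) ≤ B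

/-- Expected `K`-interval functional along one step. -/
noncomputable def mQ (π : S → ℝ) (n : ℕ) (F : S → ℕ → ℝ) (Q : Matrix S S ℝ) (K : ℕ) : ℝ :=
  ∑ z, ∑ a, π z * Q z a * W n K (fun i => F a i - F z i)

/-- Expected sign-imbalance along one step. -/
noncomputable def eQ (π : S → ℝ) (n : ℕ) (F : S → ℕ → ℝ) (Q : Matrix S S ℝ) (K : ℕ) : ℝ :=
  ∑ z, ∑ a, π z * Q z a *
    |Pg n K (fun i => F a i - F z i) - Ng n K (fun i => F a i - F z i)|

lemma Good.mul {π : S → ℝ} {n : ℕ} {F : S → ℕ → ℝ} {Q : Matrix S S ℝ} {B : ℝ}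
    (hQ : Good π n F Q B) : Good π n F (Q * Q) (2 * B) where
  nonneg x y := by
    rw [Matrix.mul_apply]
    exact Finset.sum_nonneg (fun z _ => mul_nonneg (hQ.nonneg _ _) (hQ.nonneg _ _))
  row x := by
    simp only [Matrix.mul_apply]
    rw [Finset.sum_comm]
    have : ∀ z, ∑ y, Q x z * Q z y = Q x z := by
      intro z
      rw [← Finset.mul_sum, hQ.row, mul_one]
    simp only [this]
    exact hQ.row x
  rev x y := by
    rw [Matrix.mul_apply, Matrix.mul_apply, Finset.mul_sum, Finset.mul_sum]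
    refine Finset.sum_congr rfl (fun z _ => ?_)
    have h1 := hQ.rev x z
    have h2 := hQ.rev z y
    calc π x * (Q x z * Q z y) = (π x * Q x z) * Q z y := by ring
      _ = (π z * Q z x) * Q z y := by rw [h1]
      _ = (π z * Q z y) * Q z x := by ring
      _ = (π y * Q y z) * Q z x := by rw [h2]
      _ = π y * (Q y z * Q z x) := by ring
  supp x y h := by
    rw [Matrix.mul_apply] at h
    obtain ⟨z, _, hz⟩ := Finset.exists_ne_zero_of_sum_ne_zero h
    have h1 : Q x z ≠ 0 := left_ne_zero_of_mul hz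
    have h2 : Q z y ≠ 0 := right_ne_zero_of_mul hz
    have h3 := tv_sub_add n (F y) (F z) (F x)
    have h4 := hQ.supp _ _ h1
    have h5 := hQ.supp _ _ h2
    linarith

lemma good_pow {π : S → ℝ} {n : ℕ} {F : S → ℕ → ℝ} {M : Matrix S S ℝ}
    (hM : Good π n F M 1) (i : ℕ) : Good π n F (M ^ (2 ^ i)) ((2 : ℝ) ^ i) := by
  induction i with
  | zero => simpa using hM
  | succ i ih =>
    have h1 : M ^ (2 ^ (i + 1)) = M ^ (2 ^ i) * M ^ (2 ^ i) := by
      rw [pow_succ 2 i, pow_mul, sq]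
    rw [h1, pow_succ' (2 : ℝ) i]
    exact ih.mul

section main

variable {π : S → ℝ} {n : ℕ} {F : S → ℕ → ℝ} {Q : Matrix S S ℝ} {B : ℝ}

lemma mQ_zero : mQ π n F Q 0 = 0 := by
  simp [mQ, W_zero]

lemma mQ_nonneg (hπ : ∀ x, 0 ≤ π x) (hQ : Good π n F Q B) (K : ℕ) : 0 ≤ mQ π n F Q K :=
  Finset.sum_nonneg (fun z _ => Finset.sum_nonneg (fun a _ =>
    mul_nonneg (mul_nonneg (hπ z) (hQ.nonneg z a)) (W_nonneg _ _ _)))

lemma eQ_nonneg (hπ : ∀ x, 0 ≤ π x) (hQ : Good π n F Q B) (K : ℕ) : 0 ≤ eQ π n F Q K :=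
  Finset.sum_nonneg (fun z _ => Finset.sum_nonneg (fun a _ =>
    mul_nonneg (mul_nonneg (hπ z) (hQ.nonneg z a)) (abs_nonneg _)))

lemma mQ_le (hπ : ∀ x, 0 ≤ π x) (hπ1 : ∑ x, π x = 1) (hQ : Good π n F Q B) (K : ℕ) :
    mQ π n F Q K ≤ B := by
  have h1 : mQ π n F Q K ≤ ∑ z, ∑ a, π z * Q z a * B := by
    refine Finset.sum_le_sum (fun z _ => Finset.sum_le_sum (fun a _ => ?_))
    by_cases h : Q z a = 0
    · simp [h]
    · exact mul_le_mul_of_nonneg_left ((W_le_tv _ _ _).trans (hQ.supp _ _ h))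
        (mul_nonneg (hπ z) (hQ.nonneg z a))
  have h2 : ∑ z, ∑ a, π z * Q z a * B = B := by
    have : ∀ z, ∑ a, π z * Q z a * B = π z * B := by
      intro z
      rw [← Finset.sum_mul, ← Finset.mul_sum, hQ.row, mul_one]
    simp only [this]
    rw [← Finset.sum_mul, hπ1, one_mul]
  linarith

lemma uncross_exp (hπ : ∀ x, 0 ≤ π x) (hQ : Good π n F Q B) (K : ℕ) :
    2 * mQ π n F Q (K + 1) - eQ π n F Q K ≤ mQ π n F Q (K + 2) + mQ π n F Q K := by
  unfold mQ eQ
  simp only [Finset.mul_sum, ← Finset.sum_sub_distrib, ← Finset.sum_add_distrib]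
  refine Finset.sum_le_sum (fun z _ => Finset.sum_le_sum (fun a _ => ?_))
  set x : ℕ → ℝ := fun i => F a i - F z i
  have hp : 0 ≤ π z * Q z a := mul_nonneg (hπ z) (hQ.nonneg z a)
  have h1 := uncross_W n K x
  have h2 := W_succ n K x
  have h3 := max_eq_half (Pg n K x) (Ng n K x)
  have h4 : 2 * W n (K + 1) x - |Pg n K x - Ng n K x| ≤ W n (K + 2) x + W n K x := by
    rw [h2]; linarith
  have h5 := mul_le_mul_of_nonneg_left h4 hp
  calc 2 * (π z * Q z a * W n (K + 1) x) - π z * Q z a * |Pg n K x - Ng n K x|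
      = π z * Q z a * (2 * W n (K + 1) x - |Pg n K x - Ng n K x|) := by ring
    _ ≤ π z * Q z a * (W n (K + 2) x + W n K x) := h5
    _ = _ := by ring

lemma doubling (hπ : ∀ x, 0 ≤ π x) (hπ1 : ∑ x, π x = 1) (hB : 0 < B) (hQ : Good π n F Q B)
    (K : ℕ) :
    mQ π n F (Q * Q) (K + 1) ≤ 2 * mQ π n F Q (K + 1) - (eQ π n F Q K) ^ 2 / (2 * B) := by
  set E : S → ℝ := fun z => ∑ a, Q z a *
    |Pg n K (fun i => F a i - F z i) - Ng n K (fun i => F a i - F z i)| with hE
  set Mz : S → ℝ := fun z => ∑ a, Q z a * W n (K + 1) (fun i => F a i - F z i) with hMz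
  have hz : ∀ z, ∑ x, ∑ y, Q z x * Q z y * W n (K + 1) (fun i => F y i - F x i)
      ≤ 2 * Mz z - (E z) ^ 2 / (2 * B) := by
    intro z
    set f : S → ℝ := fun a => Pg n K (fun i => F a i - F z i) with hf
    set g : S → ℝ := fun a => Ng n K (fun i => F a i - F z i) with hg
    have hfg : ∀ a, Q z a ≠ 0 → |f a - g a| ≤ B := by
      intro a ha
      have h1 := Pg_nonneg n K (fun i => F a i - F z i)
      have h2 := Ng_nonneg n K (fun i => F a i - F z i)
      have h3 := Pg_le_tv n K (fun i => F a i - F z i)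
      have h4 := Ng_le_tv n K (fun i => F a i - F z i)
      have h5 := hQ.supp z a ha
      rw [abs_le]
      constructor
      · show -B ≤ Pg n K (fun i => F a i - F z i) - Ng n K (fun i => F a i - F z i)
        linarith
      · show Pg n K (fun i => F a i - F z i) - Ng n K (fun i => F a i - F z i) ≤ B
        linarith
    have hc := core (Q z) f g B hB (hQ.nonneg z) (hQ.row z) hfg
    have hM : ∑ x, Q z x * max (f x) (g x) = Mz z := by
      refine Finset.sum_congr rfl (fun a _ => ?_)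
      rw [W_succ]
    have hEz : ∑ x, Q z x * |f x - g x| = E z := rfl
    rw [hM, hEz] at hc
    refine le_trans ?_ hc
    refine Finset.sum_le_sum (fun x _ => Finset.sum_le_sum (fun y _ => ?_))
    refine mul_le_mul_of_nonneg_left ?_ (mul_nonneg (hQ.nonneg _ _) (hQ.nonneg _ _))
    have hp := pair_bound n K (fun i => F y i - F z i) (fun i => F x i - F z i)
    have hfun : (fun i => (F y i - F z i) - (F x i - F z i)) = (fun i => F y i - F x i) := by
      funext i; ring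
    rw [hfun] at hp
    exact hp
  have h1 : mQ π n F (Q * Q) (K + 1) =
      ∑ z, π z * ∑ x, ∑ y, Q z x * Q z y * W n (K + 1) (fun i => F y i - F x i) := by
    unfold mQ
    calc ∑ x, ∑ y, π x * (Q * Q) x y * W n (K + 1) (fun i => F y i - F x i)
        = ∑ x, ∑ y, ∑ z, π z * (Q z x * Q z y * W n (K + 1) (fun i => F y i - F x i)) := by
          refine Finset.sum_congr rfl (fun x _ => Finset.sum_congr rfl (fun y _ => ?_))
          rw [Matrix.mul_apply, Finset.mul_sum, Finset.sum_mul]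
          refine Finset.sum_congr rfl (fun z _ => ?_)
          have h := hQ.rev x z
          calc π x * (Q x z * Q z y) * W n (K + 1) (fun i => F y i - F x i)
              = (π x * Q x z) * (Q z y * W n (K + 1) (fun i => F y i - F x i)) := by ring
            _ = (π z * Q z x) * (Q z y * W n (K + 1) (fun i => F y i - F x i)) := by rw [h]
            _ = _ := by ring
      _ = ∑ x, ∑ z, ∑ y, π z * (Q z x * Q z y * W n (K + 1) (fun i => F y i - F x i)) :=
          Finset.sum_congr rfl (fun x _ => Finset.sum_comm)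
      _ = ∑ z, ∑ x, ∑ y, π z * (Q z x * Q z y * W n (K + 1) (fun i => F y i - F x i)) :=
          Finset.sum_comm
      _ = _ := by
          refine Finset.sum_congr rfl (fun z _ => ?_)
          rw [Finset.mul_sum]
          refine Finset.sum_congr rfl (fun x _ => ?_)
          rw [Finset.mul_sum]
  have h2 : mQ π n F Q (K + 1) = ∑ z, π z * Mz z := by
    unfold mQ
    refine Finset.sum_congr rfl (fun z _ => ?_)
    rw [hMz, Finset.mul_sum]
    exact Finset.sum_congr rfl (fun a _ => by ring)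
  have h3 : eQ π n F Q K = ∑ z, π z * E z := by
    unfold eQ
    refine Finset.sum_congr rfl (fun z _ => ?_)
    rw [hE, Finset.mul_sum]
    exact Finset.sum_congr rfl (fun a _ => by ring)
  have hJ : (∑ z, π z * E z) ^ 2 ≤ ∑ z, π z * (E z) ^ 2 := by
    have := Finset.sum_sq_le_sum_mul_sum_of_sq_le_mul (Finset.univ) (r := fun z => π z * E z)
      (f := π) (g := fun z => π z * (E z) ^ 2) (fun z _ => hπ z)
      (fun z _ => mul_nonneg (hπ z) (sq_nonneg _)) (fun z _ => le_of_eq (by ring))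
    rwa [hπ1, one_mul] at this
  have h4 : ∑ z, π z * ∑ x, ∑ y, Q z x * Q z y * W n (K + 1) (fun i => F y i - F x i)
      ≤ ∑ z, π z * (2 * Mz z - (E z) ^ 2 / (2 * B)) :=
    Finset.sum_le_sum (fun z _ => mul_le_mul_of_nonneg_left (hz z) (hπ z))
  have h5 : ∑ z, π z * (2 * Mz z - (E z) ^ 2 / (2 * B))
      = 2 * (∑ z, π z * Mz z) - (∑ z, π z * (E z) ^ 2) / (2 * B) := by
    rw [Finset.mul_sum, Finset.sum_div, ← Finset.sum_sub_distrib]
    exact Finset.sum_congr rfl (fun z _ => by ring)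
  have h6 : (eQ π n F Q K) ^ 2 / (2 * B) ≤ (∑ z, π z * (E z) ^ 2) / (2 * B) := by
    rw [h3]
    exact div_le_div_of_nonneg_right hJ (by positivity)
  rw [h1, h2]
  linarith

end main

section key

variable {n : ℕ} {F : S → ℕ → ℝ}

/-- The key estimate for the normalized functional. -/
lemma key_bound (π : S → ℝ) (P : Matrix S S ℝ) (hπ : ∀ x, 0 ≤ π x) (hπ1 : ∑ x, π x = 1)
    (hM : Good π n F P 1) (J : ℕ) :
    (J : ℝ) * (mQ π n F (P ^ (2 ^ J)) 1 / (2 : ℝ) ^ J) ^ 4 ≤ 64 := by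
  set w : ℕ → ℕ → ℝ := fun K i => mQ π n F (P ^ (2 ^ i)) K / (2 : ℝ) ^ i with hw
  set ε : ℕ → ℕ → ℝ := fun K i => eQ π n F (P ^ (2 ^ i)) K / (2 : ℝ) ^ i with hε
  have hBpos : ∀ i : ℕ, (0 : ℝ) < (2 : ℝ) ^ i := fun i => by positivity
  exact seq_bound w ε
    (by intro i; simp only [hw, mQ_zero, zero_div])
    (by
      intro K i
      have hg := good_pow hM i
      exact ⟨div_nonneg (mQ_nonneg hπ hg K) (hBpos i).le,
        (div_le_one (hBpos i)).2 (mQ_le hπ hπ1 hg K)⟩)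
    (by
      intro K i
      exact div_nonneg (eQ_nonneg hπ (good_pow hM i) K) (hBpos i).le)
    (by
      intro K i
      have hg := good_pow hM i
      have hd := doubling hπ hπ1 (hBpos i) hg K
      have h1 : P ^ (2 ^ (i + 1)) = P ^ (2 ^ i) * P ^ (2 ^ i) := by
        rw [pow_succ 2 i, pow_mul, sq]
      simp only [hw, hε]
      rw [h1, pow_succ' (2 : ℝ) i]
      have hB := hBpos i
      set B : ℝ := (2 : ℝ) ^ i
      set m' := mQ π n F (P ^ (2 ^ i) * P ^ (2 ^ i)) (K + 1)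
      set m := mQ π n F (P ^ (2 ^ i)) (K + 1)
      set e := eQ π n F (P ^ (2 ^ i)) K
      have h2 : m / B - (e / B) ^ 2 / 4 = (2 * m - e ^ 2 / (2 * B)) / (2 * B) := by
        field_simp
        ring
      rw [h2]
      exact div_le_div_of_nonneg_right hd (by positivity))
    (by
      intro K i
      have hg := good_pow hM i
      have hd := uncross_exp hπ hg K
      simp only [hw, hε]
      have hB := hBpos i
      have h2 : 2 * (mQ π n F (P ^ (2 ^ i)) (K + 1) / (2 : ℝ) ^ i)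
          - eQ π n F (P ^ (2 ^ i)) K / (2 : ℝ) ^ i
          = (2 * mQ π n F (P ^ (2 ^ i)) (K + 1) - eQ π n F (P ^ (2 ^ i)) K) / (2 : ℝ) ^ i := by
        ring
      have h3 : mQ π n F (P ^ (2 ^ i)) (K + 2) / (2 : ℝ) ^ i
          + mQ π n F (P ^ (2 ^ i)) K / (2 : ℝ) ^ i
          = (mQ π n F (P ^ (2 ^ i)) (K + 2) + mQ π n F (P ^ (2 ^ i)) K) / (2 : ℝ) ^ i := by
        ring
      rw [h2, h3]
      exact div_le_div_of_nonneg_right hd hB.le)
    J

end key

/-- The main estimate. -/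
theorem main_bound (π : S → ℝ) (P : Matrix S S ℝ) (hπ : ∀ x, 0 ≤ π x) (hπ1 : ∑ x, π x = 1)
    (hP : ∀ x y, 0 ≤ P x y) (hP1 : ∀ x, ∑ y, P x y = 1)
    (hrev : ∀ x y, π x * P x y = π y * P y x) (n : ℕ) (F : S → ℕ → ℝ)
    (hF : ∀ x y, P x y ≠ 0 → tv n (fun i => F y i - F x i) ≤ 1) (J : ℕ) :
    (J : ℝ) * (∑ x, ∑ y, π x * (P ^ (2 ^ J)) x y * osc n (fun i => F y i - F x i)) ^ 4
      ≤ 64 * ((2 : ℝ) ^ J) ^ 4 := by
  have hM : Good π n F P 1 := ⟨hP, hP1, hrev, hF⟩
  have key := key_bound π P hπ hπ1 hM J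
  set w : ℕ → ℕ → ℝ := fun K i => mQ π n F (P ^ (2 ^ i)) K / (2 : ℝ) ^ i with hw
  have hBpos : ∀ i : ℕ, (0 : ℝ) < (2 : ℝ) ^ i := fun i => by positivity
  change (J : ℝ) * (w 1 J) ^ 4 ≤ 64 at key
  -- comparison of the oscillation with the functional
  have hg := good_pow hM J
  have hE0 : 0 ≤ ∑ x, ∑ y, π x * (P ^ (2 ^ J)) x y * osc n (fun i => F y i - F x i) :=
    Finset.sum_nonneg (fun x _ => Finset.sum_nonneg (fun y _ =>
      mul_nonneg (mul_nonneg (hπ x) (hg.nonneg x y)) (osc_nonneg _ _)))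
  have hE1 : ∑ x, ∑ y, π x * (P ^ (2 ^ J)) x y * osc n (fun i => F y i - F x i)
      ≤ mQ π n F (P ^ (2 ^ J)) 1 :=
    Finset.sum_le_sum (fun x _ => Finset.sum_le_sum (fun y _ =>
      mul_le_mul_of_nonneg_left (osc_le_W _ _) (mul_nonneg (hπ x) (hg.nonneg x y))))
  have hB := hBpos J
  have hE2 : mQ π n F (P ^ (2 ^ J)) 1 = (2 : ℝ) ^ J * w 1 J := by
    simp only [hw]
    field_simp
  have hE3 := pow_le_pow_left₀ hE0 (hE1.trans_eq hE2) 4
  calc (J : ℝ) * (∑ x, ∑ y, π x * (P ^ (2 ^ J)) x y * osc n (fun i => F y i - F x i)) ^ 4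
      ≤ (J : ℝ) * ((2 : ℝ) ^ J * w 1 J) ^ 4 :=
        mul_le_mul_of_nonneg_left hE3 (Nat.cast_nonneg _)
    _ = ((J : ℝ) * (w 1 J) ^ 4) * ((2 : ℝ) ^ J) ^ 4 := by ring
    _ ≤ 64 * ((2 : ℝ) ^ J) ^ 4 := mul_le_mul_of_nonneg_right key (by positivity)

end Vale.Agent.P125
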