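import Vale.Agent.P125.AllTimes

namespace Vale.Agent.P125

open Finset

lemma abs_pair_trunc {u v L : ℝ} (hL : 0 ≤ L) :
    L * |v - u| ≤ L * (|u| + |v|)
      - 2 * (min (max u 0) L * min (max v 0) L + min (max (-u) 0) L * min (max (-v) 0) L) := by
  have hz : min (0 : ℝ) L = 0 := min_eq_left hL
  rcases le_total 0 u with h1 | h1 <;> rcases le_total 0 v with h2 | h2
  · rw [max_eq_left h1, max_eq_left h2, max_eq_right (by linarith), max_eq_right (by linarith), hz,
      abs_of_nonneg h1, abs_of_nonneg h2]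
    have ha0 : 0 ≤ min u L := le_min h1 hL
    have hb0 : 0 ≤ min v L := le_min h2 hL
    have hau : min u L ≤ u := min_le_left _ _
    have haL : min u L ≤ L := min_le_right _ _
    have hbv : min v L ≤ v := min_le_left _ _
    have hbL : min v L ≤ L := min_le_right _ _
    rcases abs_cases (v - u) with ⟨h3, h4⟩ | ⟨h3, h4⟩ <;> rw [h3]
    · nlinarith [mul_nonneg ha0 (sub_nonneg.2 hbL), mul_nonneg hL (sub_nonneg.2 hau)]
    · nlinarith [mul_nonneg hb0 (sub_nonneg.2 haL), mul_nonneg hL (sub_nonneg.2 hbv)]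
  · rw [max_eq_left h1, max_eq_right h2, max_eq_right (by linarith), max_eq_left (by linarith), hz,
      abs_of_nonneg h1, abs_of_nonpos h2, abs_of_nonpos (by linarith)]
    nlinarith
  · rw [max_eq_right h1, max_eq_left h2, max_eq_left (by linarith), max_eq_right (by linarith), hz,
      abs_of_nonpos h1, abs_of_nonneg h2, abs_of_nonneg (by linarith)]
    nlinarith
  · rw [max_eq_right h1, max_eq_right h2, max_eq_left (by linarith), max_eq_left (by linarith), hz,
      abs_of_nonpos h1, abs_of_nonpos h2]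
    have ha0 : 0 ≤ min (-u) L := le_min (by linarith) hL
    have hb0 : 0 ≤ min (-v) L := le_min (by linarith) hL
    have hau : min (-u) L ≤ -u := min_le_left _ _
    have haL : min (-u) L ≤ L := min_le_right _ _
    have hbv : min (-v) L ≤ -v := min_le_left _ _
    have hbL : min (-v) L ≤ L := min_le_right _ _
    rcases abs_cases (v - u) with ⟨h3, h4⟩ | ⟨h3, h4⟩ <;> rw [h3]
    · nlinarith [mul_nonneg hb0 (sub_nonneg.2 haL), mul_nonneg hL (sub_nonneg.2 hbv)]
    · nlinarith [mul_nonneg ha0 (sub_nonneg.2 hbL), mul_nonneg hL (sub_nonneg.2 hau)]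

/-- The truncated form of the core finite-probability lemma. -/
lemma core_trunc {α : Type*} [Fintype α] (q f g : α → ℝ) (L : ℝ) (hL : 0 < L) (hq : ∀ x, 0 ≤ q x)
    (hq1 : ∑ x, q x = 1) :
    ∑ x, ∑ y, q x * q y * max (f y + g x) (g y + f x)
      ≤ 2 * ∑ x, q x * max (f x) (g x) - (∑ x, q x * min |f x - g x| L) ^ 2 / (2 * L) := by
  set d : α → ℝ := fun x => f x - g x with hd
  set E := ∑ x, q x * |d x| with hE
  set Et := ∑ x, q x * min |d x| L with hEt
  set A := ∑ x, q x * min (max (d x) 0) L with hA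
  set C := ∑ x, q x * min (max (-d x) 0) L with hC
  have hz : min (0 : ℝ) L = 0 := min_eq_left hL.le
  have hAC : A + C = Et := by
    rw [hA, hC, hEt, ← Finset.sum_add_distrib]
    refine Finset.sum_congr rfl (fun x _ => ?_)
    rcases le_total 0 (d x) with h | h
    · rw [max_eq_left h, max_eq_right (by linarith), abs_of_nonneg h, hz]; ring
    · rw [max_eq_right h, max_eq_left (by linarith), abs_of_nonpos h, hz]; ring
  have hdouble : ∀ (h k : α → ℝ), ∑ x, ∑ y, q x * q y * (h x * k y) =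
      (∑ x, q x * h x) * ∑ y, q y * k y := by
    intro h k
    rw [Finset.sum_mul_sum]
    refine Finset.sum_congr rfl (fun x _ => Finset.sum_congr rfl (fun y _ => by ring))
  have h1x : ∀ (h : α → ℝ), ∑ x, ∑ y, q x * q y * h x = ∑ x, q x * h x := by
    intro h
    have := hdouble h (fun _ => 1)
    simp only [mul_one] at this
    rw [this, hq1, mul_one]
  have h1y : ∀ (h : α → ℝ), ∑ x, ∑ y, q x * q y * h y = ∑ y, q y * h y := by
    intro h
    have := hdouble (fun _ => 1) h
    simp only [mul_one, one_mul] at this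
    rw [this, hq1, one_mul]
  have hptw : ∀ x y, q x * q y * (L * |d y - d x|) ≤ q x * q y *
      (L * (|d x| + |d y|) - 2 * (min (max (d x) 0) L * min (max (d y) 0) L
        + min (max (-d x) 0) L * min (max (-d y) 0) L)) := by
    intro x y
    exact mul_le_mul_of_nonneg_left (abs_pair_trunc hL.le) (mul_nonneg (hq x) (hq y))
  have hsum : ∑ x, ∑ y, q x * q y * (L * |d y - d x|) ≤
      2 * L * E - 2 * (A ^ 2 + C ^ 2) := by
    have h2 : ∑ x, ∑ y, q x * q y * (L * |d y - d x|) ≤ ∑ x, ∑ y, q x * q y *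
      (L * (|d x| + |d y|) - 2 * (min (max (d x) 0) L * min (max (d y) 0) L
        + min (max (-d x) 0) L * min (max (-d y) 0) L)) :=
      Finset.sum_le_sum (fun x _ => Finset.sum_le_sum (fun y _ => hptw x y))
    have h3 : ∑ x, ∑ y, q x * q y *
      (L * (|d x| + |d y|) - 2 * (min (max (d x) 0) L * min (max (d y) 0) L
        + min (max (-d x) 0) L * min (max (-d y) 0) L))
        = L * (∑ x, ∑ y, q x * q y * |d x|) + L * (∑ x, ∑ y, q x * q y * |d y|)
          - 2 * (∑ x, ∑ y, q x * q y * (min (max (d x) 0) L * min (max (d y) 0) L))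
          - 2 * (∑ x, ∑ y, q x * q y * (min (max (-d x) 0) L * min (max (-d y) 0) L)) := by
      simp only [Finset.mul_sum, ← Finset.sum_add_distrib, ← Finset.sum_sub_distrib]
      refine Finset.sum_congr rfl (fun x _ => Finset.sum_congr rfl (fun y _ => by ring))
    rw [h3, h1x (fun x => |d x|), h1y (fun y => |d y|),
      hdouble (fun x => min (max (d x) 0) L) (fun x => min (max (d x) 0) L),
      hdouble (fun x => min (max (-d x) 0) L) (fun x => min (max (-d x) 0) L)] at h2
    have h4 : A ^ 2 = A * A := sq A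
    have h5 : C ^ 2 = C * C := sq C
    rw [h4, h5]
    have : (∑ x, q x * |d x|) = E := rfl
    linarith
  have hL' : 2 * L * ∑ x, ∑ y, q x * q y * max (f y + g x) (g y + f x) =
      2 * L * ∑ x, q x * (f x + g x) + ∑ x, ∑ y, q x * q y * (L * |d y - d x|) := by
    have h6 : ∀ x y, 2 * L * (q x * q y * max (f y + g x) (g y + f x)) =
        L * (q x * q y * (f x + g x)) + L * (q x * q y * (f y + g y))
          + q x * q y * (L * |d y - d x|) := by
      intro x y
      have := max_pair_eq (f y) (f x) (g y) (g x)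
      have h7 : |f y - g y - (f x - g x)| = |d y - d x| := rfl
      rw [h7] at this
      calc 2 * L * (q x * q y * max (f y + g x) (g y + f x))
          = L * (q x * q y) * (2 * max (f y + g x) (g y + f x)) := by ring
        _ = _ := by rw [this]; ring
    have h8 : 2 * L * ∑ x, ∑ y, q x * q y * max (f y + g x) (g y + f x)
        = ∑ x, ∑ y, (L * (q x * q y * (f x + g x)) + L * (q x * q y * (f y + g y))
          + q x * q y * (L * |d y - d x|)) := by
      rw [Finset.mul_sum]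
      refine Finset.sum_congr rfl (fun x _ => ?_)
      rw [Finset.mul_sum]
      exact Finset.sum_congr rfl (fun y _ => h6 x y)
    rw [h8]
    simp only [Finset.sum_add_distrib]
    have e1 : ∑ x, ∑ y, L * (q x * q y * (f x + g x)) = L * ∑ x, q x * (f x + g x) := by
      rw [← h1x (fun x => f x + g x), Finset.mul_sum]
      exact Finset.sum_congr rfl (fun x _ => by rw [Finset.mul_sum])
    have e2 : ∑ x, ∑ y, L * (q x * q y * (f y + g y)) = L * ∑ x, q x * (f x + g x) := by
      rw [← h1y (fun y => f y + g y), Finset.mul_sum]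
      exact Finset.sum_congr rfl (fun x _ => by rw [Finset.mul_sum])
    rw [e1, e2]
    ring
  have hR : ∑ x, q x * (f x + g x) + E = 2 * ∑ x, q x * max (f x) (g x) := by
    rw [hE, ← Finset.sum_add_distrib, Finset.mul_sum]
    refine Finset.sum_congr rfl (fun x _ => ?_)
    have := max_eq_half (f x) (g x)
    have h9 : |d x| = |f x - g x| := rfl
    rw [h9]
    calc q x * (f x + g x) + q x * |f x - g x| = q x * (f x + g x + |f x - g x|) := by ring
      _ = q x * (2 * max (f x) (g x)) := by rw [this]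
      _ = _ := by ring
  have hsq : Et ^ 2 ≤ 2 * (A ^ 2 + C ^ 2) := by
    rw [← hAC]
    nlinarith [sq_nonneg (A - C)]
  have h2L : 0 < 2 * L := by positivity
  have hgoal : 0 ≤ 2 * L * (2 * ∑ x, q x * max (f x) (g x) - Et ^ 2 / (2 * L) -
      ∑ x, ∑ y, q x * q y * max (f y + g x) (g y + f x)) := by
    have h10 : 2 * L * (2 * ∑ x, q x * max (f x) (g x) - Et ^ 2 / (2 * L) -
      ∑ x, ∑ y, q x * q y * max (f y + g x) (g y + f x))
        = 2 * L * (2 * ∑ x, q x * max (f x) (g x)) - Et ^ 2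
          - 2 * L * ∑ x, ∑ y, q x * q y * max (f y + g x) (g y + f x) := by
      field_simp
    rw [h10, hL', ← hR]
    nlinarith
  have h11 := (mul_nonneg_iff_of_pos_left h2L).1 hgoal
  calc _ ≤ 2 * ∑ x, q x * max (f x) (g x) - Et ^ 2 / (2 * L) := by linarith
    _ = _ := rfl

/-- The potential argument with the cubic decrement. -/
lemma seq_bound_cubic (w ε : ℕ → ℕ → ℝ) (h0 : ∀ i, w 0 i = 0)
    (hb : ∀ K i, 0 ≤ w K i ∧ w K i ≤ 1) (he : ∀ K i, 0 ≤ ε K i)
    (hd : ∀ K i, w (K + 1) (i + 1) ≤ w (K + 1) i - (ε K i) ^ 3 / 32)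
    (hu : ∀ K i, 2 * w (K + 1) i - ε K i ≤ w (K + 2) i + w K i) (J : ℕ) :
    (J : ℝ) * (w 1 J) ^ 6 ≤ 2048 := by
  set ρ := w 1 J with hρdef
  rcases (show 0 ≤ ρ from (hb 1 J).1).eq_or_lt with hρ0 | hρ
  · rw [← hρ0]; norm_num
  have hρne : ρ ≠ 0 := hρ.ne'
  have hρ1 : ρ ≤ 1 := (hb 1 J).2
  have hmono : ∀ i, w 1 (i + 1) ≤ w 1 i := by
    intro i
    have := hd 0 i
    have h2 : 0 ≤ (ε 0 i) ^ 3 := pow_nonneg (he 0 i) 3
    simp only [zero_add] at this
    linarith
  have hge : ∀ i, i ≤ J → ρ ≤ w 1 i := by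
    intro i hi
    have : Antitone (w 1) := antitone_nat_of_succ_le hmono
    exact this hi
  obtain ⟨L, hL1, hL2, hL3⟩ : ∃ L : ℕ, 1 ≤ L ∧ (L : ℝ) ≤ 2 / ρ ∧ 2 / ρ ≤ (L : ℝ) + 1 := by
    have h2 : 2 ≤ 2 / ρ := by
      rw [le_div_iff₀ hρ]; linarith
    refine ⟨⌈2 / ρ⌉₊ - 1, ?_, ?_, ?_⟩
    · have h2' : (2 : ℝ) ≤ (⌈2 / ρ⌉₊ : ℝ) := h2.trans (Nat.le_ceil _)
      have : 2 ≤ ⌈2 / ρ⌉₊ := by exact_mod_cast h2'
      omega
    · have hc : (⌈2 / ρ⌉₊ : ℝ) < 2 / ρ + 1 := Nat.ceil_lt_add_one (by linarith)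
      have hpos : 1 ≤ ⌈2 / ρ⌉₊ := Nat.one_le_ceil_iff.mpr (by linarith)
      rw [Nat.cast_sub hpos]
      push_cast
      linarith
    · have hc : 2 / ρ ≤ (⌈2 / ρ⌉₊ : ℝ) := Nat.le_ceil _
      have hpos : 1 ≤ ⌈2 / ρ⌉₊ := Nat.one_le_ceil_iff.mpr (by linarith)
      rw [Nat.cast_sub hpos]
      push_cast
      linarith
  have hLpos : (0 : ℝ) < L := by exact_mod_cast hL1
  have henergy : ∀ i, i ≤ J → ρ ^ 3 / (8 * (L : ℝ) ^ 2) ≤ ∑ k ∈ range L, (ε k i) ^ 3 := by
    intro i hi
    set T := ∑ k ∈ range L, ε k i with hT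
    have hw1 := hge i hi
    have hdiff : ∀ K, K ≤ L → w 1 i - ∑ k ∈ range K, ε k i ≤ w (K + 1) i - w K i := by
      intro K
      induction K with
      | zero =>
        intro _
        simp [h0]
      | succ K ih =>
        intro hK
        have := ih (by omega)
        have h3 := hu K i
        rw [Finset.sum_range_succ]
        have h4 : w (K + 1 + 1) i = w (K + 2) i := rfl
        rw [h4]
        linarith
    have hdiff2 : ∀ K, K ≤ L → w 1 i - T ≤ w (K + 1) i - w K i := by
      intro K hK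
      have h5 : ∑ k ∈ range K, ε k i ≤ T :=
        Finset.sum_le_sum_of_subset_of_nonneg (Finset.range_subset_range.2 hK)
          (fun _ _ _ => he _ _)
      have := hdiff K hK
      linarith
    have hsum : ∀ K, K ≤ L + 1 → (K : ℝ) * (w 1 i - T) ≤ w K i := by
      intro K
      induction K with
      | zero => intro _; simp [h0]
      | succ K ih =>
        intro hK
        have h6 := ih (by omega)
        have h7 := hdiff2 K (by omega)
        push_cast
        linarith
    have hfin := hsum (L + 1) le_rfl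
    have hle1 := (hb (L + 1) i).2
    push_cast at hfin
    have hTρ : ρ / 2 ≤ T := by
      by_contra hcon
      push Not at hcon
      have h8 : ρ / 2 < w 1 i - T := by linarith
      have h9 : 0 < (L : ℝ) + 1 := by linarith
      have h10 : ((L : ℝ) + 1) * (ρ / 2) < 1 := by
        calc ((L : ℝ) + 1) * (ρ / 2) < ((L : ℝ) + 1) * (w 1 i - T) :=
              mul_lt_mul_of_pos_left h8 h9
          _ ≤ 1 := hfin.trans hle1
      have h11 : 2 / ρ * (ρ / 2) = 1 := by field_simp
      have h12 : 2 / ρ * (ρ / 2) ≤ ((L : ℝ) + 1) * (ρ / 2) :=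
        mul_le_mul_of_nonneg_right hL3 (by linarith)
      linarith
    have hCS : T ^ 3 / (L : ℝ) ^ 2 ≤ ∑ k ∈ range L, (ε k i) ^ 3 := by
      have := pow_sum_div_card_le_sum_pow (s := range L) (f := fun k => ε k i)
        (fun k _ => he k i) 2
      simpa using this
    have h13 : (ρ / 2) ^ 3 ≤ T ^ 3 := pow_le_pow_left₀ (by linarith) hTρ 3
    refine le_trans ?_ hCS
    have h14 : ρ ^ 3 / (8 * (L : ℝ) ^ 2) = (ρ / 2) ^ 3 / (L : ℝ) ^ 2 := by
      field_simp
      norm_num
    rw [h14]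
    exact div_le_div_of_nonneg_right h13 (by positivity)
  set Φ : ℕ → ℝ := fun i => ∑ k ∈ range L, w (k + 1) i with hΦ
  have hΦstep : ∀ i, i < J → Φ (i + 1) ≤ Φ i - ρ ^ 3 / (256 * (L : ℝ) ^ 2) := by
    intro i hi
    have h14 : Φ (i + 1) ≤ Φ i - (∑ k ∈ range L, (ε k i) ^ 3) / 32 := by
      simp only [hΦ]
      rw [Finset.sum_div, ← Finset.sum_sub_distrib]
      exact Finset.sum_le_sum (fun k _ => hd k i)
    have h15 := henergy i hi.le
    have h16 : ρ ^ 3 / (256 * (L : ℝ) ^ 2) = ρ ^ 3 / (8 * (L : ℝ) ^ 2) / 32 := by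
      field_simp
      norm_num
    rw [h16]
    linarith
  have hΦiter : ∀ i, i ≤ J → Φ i ≤ Φ 0 - (i : ℝ) * (ρ ^ 3 / (256 * (L : ℝ) ^ 2)) := by
    intro i
    induction i with
    | zero => intro _; simp
    | succ i ih =>
      intro hi
      have h17 := ih (by omega)
      have h18 := hΦstep i (by omega)
      push_cast
      linarith
  have hΦ0 : Φ 0 ≤ L := by
    have : Φ 0 ≤ ∑ k ∈ range L, (1 : ℝ) := Finset.sum_le_sum (fun k _ => (hb (k + 1) 0).2)
    simpa using this
  have hΦJ : 0 ≤ Φ J := Finset.sum_nonneg (fun k _ => (hb (k + 1) J).1)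
  have hfinal := hΦiter J le_rfl
  have h19 : (J : ℝ) * (ρ ^ 3 / (256 * (L : ℝ) ^ 2)) ≤ L := by linarith
  have h20 : (J : ℝ) * ρ ^ 3 ≤ 256 * (L : ℝ) ^ 3 := by
    have : (J : ℝ) * (ρ ^ 3 / (256 * (L : ℝ) ^ 2)) = (J : ℝ) * ρ ^ 3 / (256 * (L : ℝ) ^ 2) := by ring
    rw [this, div_le_iff₀ (by positivity)] at h19
    nlinarith
  have h21 : (L : ℝ) * ρ ≤ 2 := by
    have := mul_le_mul_of_nonneg_right hL2 hρ.le
    have h22 : 2 / ρ * ρ = 2 := by field_simp
    linarith
  have h23 : ((L : ℝ) * ρ) ^ 3 ≤ 2 ^ 3 := pow_le_pow_left₀ (by positivity) h21 3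
  calc (J : ℝ) * ρ ^ 6 = ((J : ℝ) * ρ ^ 3) * ρ ^ 3 := by ring
    _ ≤ (256 * (L : ℝ) ^ 3) * ρ ^ 3 := mul_le_mul_of_nonneg_right h20 (by positivity)
    _ = 256 * ((L : ℝ) * ρ) ^ 3 := by ring
    _ ≤ 2048 := by linarith

end Vale.Agent.P125
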