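import Vale.Agent.P125.Energy

namespace Vale.Agent.P125

open Finset

variable {S : Type*} [Fintype S] [DecidableEq S]

/-- A reversible transition matrix whose edges have energy at most `B ^ 2`. -/
structure GoodE (π : S → ℝ) (n : ℕ) (F : S → ℕ → ℝ) (Q : Matrix S S ℝ) (B : ℝ) : Prop where
  nonneg : ∀ x y, 0 ≤ Q x y
  row : ∀ x, ∑ y, Q x y = 1
  rev : ∀ x y, π x * Q x y = π y * Q y x
  energy : ∑ x, ∑ y, π x * Q x y * (tv n (fun i => F y i - F x i)) ^ 2 ≤ B ^ 2

section main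

variable {π : S → ℝ} {n : ℕ} {F : S → ℕ → ℝ} {Q : Matrix S S ℝ} {B : ℝ}

lemma split_right {R : Matrix S S ℝ} (hQ : GoodE π n F Q B) (h : S → S → ℝ) :
    ∑ x, ∑ y, ∑ z, (π x * Q x z * R z y) * h y z = ∑ z, ∑ a, π z * R z a * h a z := by
  calc ∑ x, ∑ y, ∑ z, (π x * Q x z * R z y) * h y z
      = ∑ y, ∑ x, ∑ z, (π x * Q x z * R z y) * h y z := Finset.sum_comm
    _ = ∑ y, ∑ z, ∑ x, (π x * Q x z * R z y) * h y z :=
        Finset.sum_congr rfl (fun y _ => Finset.sum_comm)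
    _ = ∑ z, ∑ y, ∑ x, (π x * Q x z * R z y) * h y z := Finset.sum_comm
    _ = _ := by
        refine Finset.sum_congr rfl (fun z _ => Finset.sum_congr rfl (fun y _ => ?_))
        have h1 : ∀ x, (π x * Q x z * R z y) * h y z = (π x * Q x z) * (R z y * h y z) := by
          intro x; ring
        simp only [h1]
        rw [← Finset.sum_mul]
        have h2 : ∀ x, π x * Q x z = π z * Q z x := fun x => hQ.rev x z
        simp only [h2]
        rw [← Finset.mul_sum, hQ.row, mul_one]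
        ring

lemma split_left {R : Matrix S S ℝ} {C : ℝ} (hR : GoodE π n F R C) (h : S → S → ℝ) :
    ∑ x, ∑ y, ∑ z, (π x * Q x z * R z y) * h z x = ∑ x, ∑ z, π x * Q x z * h z x := by
  refine Finset.sum_congr rfl (fun x _ => ?_)
  rw [Finset.sum_comm]
  refine Finset.sum_congr rfl (fun z _ => ?_)
  have h1 : ∀ y, (π x * Q x z * R z y) * h z x = (π x * Q x z * h z x) * R z y := by
    intro y; ring
  simp only [h1]
  rw [← Finset.mul_sum, hR.row, mul_one]

lemma tv_triangle_nonneg (x y z : S) :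
    tv n (fun i => F y i - F x i) ≤ tv n (fun i => F y i - F z i) + tv n (fun i => F z i - F x i) :=
  tv_sub_add n (F y) (F z) (F x)

lemma GoodE.mul (hπ : ∀ x, 0 ≤ π x) (hQ : GoodE π n F Q B) : GoodE π n F (Q * Q) (2 * B) where
  nonneg x y := by
    rw [Matrix.mul_apply]
    exact Finset.sum_nonneg (fun z _ => mul_nonneg (hQ.nonneg _ _) (hQ.nonneg _ _))
  row x := by
    simp only [Matrix.mul_apply]
    rw [Finset.sum_comm]
    have : ∀ z, ∑ y, Q x z * Q z y = Q x z := by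
      intro z
      rw [← Finset.mul_sum, hQ.row, mul_one]
    simp only [this]
    exact hQ.row x
  rev x y := by
    rw [Matrix.mul_apply, Matrix.mul_apply, Finset.mul_sum, Finset.mul_sum]
    refine Finset.sum_congr rfl (fun z _ => ?_)
    have h1 := hQ.rev x z
    have h2 := hQ.rev z y
    calc π x * (Q x z * Q z y) = (π x * Q x z) * Q z y := by ring
      _ = (π z * Q z x) * Q z y := by rw [h1]
      _ = (π z * Q z y) * Q z x := by ring
      _ = (π y * Q y z) * Q z x := by rw [h2]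
      _ = π y * (Q y z * Q z x) := by ring
  energy := by
    have h1 : ∑ x, ∑ y, π x * (Q * Q) x y * (tv n (fun i => F y i - F x i)) ^ 2
        ≤ ∑ x, ∑ y, ∑ z, (π x * Q x z * Q z y) *
          (2 * (tv n (fun i => F y i - F z i)) ^ 2 + 2 * (tv n (fun i => F z i - F x i)) ^ 2) := by
      refine Finset.sum_le_sum (fun x _ => Finset.sum_le_sum (fun y _ => ?_))
      rw [Matrix.mul_apply, Finset.mul_sum, Finset.sum_mul]
      refine Finset.sum_le_sum (fun z _ => ?_)
      have hnn : 0 ≤ π x * Q x z * Q z y :=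
        mul_nonneg (mul_nonneg (hπ x) (hQ.nonneg x z)) (hQ.nonneg z y)
      have ht := tv_triangle_nonneg (n := n) (F := F) x y z
      have h0 := tv_nonneg n (fun i => F y i - F x i)
      have ha := tv_nonneg n (fun i => F y i - F z i)
      have hb := tv_nonneg n (fun i => F z i - F x i)
      have h2 : (tv n (fun i => F y i - F x i)) ^ 2 ≤
          2 * (tv n (fun i => F y i - F z i)) ^ 2 + 2 * (tv n (fun i => F z i - F x i)) ^ 2 := by
        have h3 := pow_le_pow_left₀ h0 ht 2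
        nlinarith [sq_nonneg (tv n (fun i => F y i - F z i) - tv n (fun i => F z i - F x i))]
      have := mul_le_mul_of_nonneg_left h2 hnn
      calc π x * (Q x z * Q z y) * (tv n (fun i => F y i - F x i)) ^ 2
          = π x * Q x z * Q z y * (tv n (fun i => F y i - F x i)) ^ 2 := by ring
        _ ≤ _ := this
    refine h1.trans ?_
    have h2 : ∀ x y z, (π x * Q x z * Q z y) *
        (2 * (tv n (fun i => F y i - F z i)) ^ 2 + 2 * (tv n (fun i => F z i - F x i)) ^ 2)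
      = 2 * ((π x * Q x z * Q z y) * (tv n (fun i => F y i - F z i)) ^ 2)
        + 2 * ((π x * Q x z * Q z y) * (tv n (fun i => F z i - F x i)) ^ 2) := by
      intro x y z; ring
    simp only [h2, Finset.sum_add_distrib, ← Finset.mul_sum]
    rw [split_right hQ (fun a z => (tv n (fun i => F a i - F z i)) ^ 2),
      split_left hQ (fun z x => (tv n (fun i => F z i - F x i)) ^ 2)]
    have := hQ.energy
    nlinarith

lemma goodE_pow (hπ : ∀ x, 0 ≤ π x) {P : Matrix S S ℝ} (hM : GoodE π n F P 1) (i : ℕ) :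
    GoodE π n F (P ^ (2 ^ i)) ((2 : ℝ) ^ i) := by
  induction i with
  | zero => simpa using hM
  | succ i ih =>
    have h1 : P ^ (2 ^ (i + 1)) = P ^ (2 ^ i) * P ^ (2 ^ i) := by
      rw [pow_succ 2 i, pow_mul, sq]
    rw [h1, pow_succ' (2 : ℝ) i]
    exact ih.mul hπ

lemma sum_weight (hπ1 : ∑ x, π x = 1) (hQ : GoodE π n F Q B) :
    ∑ z, ∑ a, π z * Q z a = 1 := by
  have : ∀ z, ∑ a, π z * Q z a = π z := by
    intro z
    rw [← Finset.mul_sum, hQ.row, mul_one]
  simp only [this]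
  exact hπ1

lemma mQ_nonneg' (hπ : ∀ x, 0 ≤ π x) (hQ : GoodE π n F Q B) (K : ℕ) : 0 ≤ mQ π n F Q K :=
  Finset.sum_nonneg (fun z _ => Finset.sum_nonneg (fun a _ =>
    mul_nonneg (mul_nonneg (hπ z) (hQ.nonneg z a)) (W_nonneg _ _ _)))

lemma eQ_nonneg' (hπ : ∀ x, 0 ≤ π x) (hQ : GoodE π n F Q B) (K : ℕ) : 0 ≤ eQ π n F Q K :=
  Finset.sum_nonneg (fun z _ => Finset.sum_nonneg (fun a _ =>
    mul_nonneg (mul_nonneg (hπ z) (hQ.nonneg z a)) (abs_nonneg _)))

lemma mQ_le' (hπ : ∀ x, 0 ≤ π x) (hπ1 : ∑ x, π x = 1) (hB : 0 < B) (hQ : GoodE π n F Q B) (K : ℕ) :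
    mQ π n F Q K ≤ B := by
  have h1 : 2 * B * mQ π n F Q K ≤
      ∑ z, ∑ a, π z * Q z a * ((tv n (fun i => F a i - F z i)) ^ 2 + B ^ 2) := by
    unfold mQ
    rw [Finset.mul_sum]
    refine Finset.sum_le_sum (fun z _ => ?_)
    rw [Finset.mul_sum]
    refine Finset.sum_le_sum (fun a _ => ?_)
    have hp : 0 ≤ π z * Q z a := mul_nonneg (hπ z) (hQ.nonneg z a)
    have h2 := W_le_tv n K (fun i => F a i - F z i)
    have h3 : 2 * B * W n K (fun i => F a i - F z i) ≤
        (tv n (fun i => F a i - F z i)) ^ 2 + B ^ 2 := by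
      nlinarith [sq_nonneg (tv n (fun i => F a i - F z i) - B), mul_le_mul_of_nonneg_left h2 hB.le]
    have h4 := mul_le_mul_of_nonneg_left h3 hp
    calc 2 * B * (π z * Q z a * W n K (fun i => F a i - F z i))
        = π z * Q z a * (2 * B * W n K (fun i => F a i - F z i)) := by ring
      _ ≤ _ := h4
  have h2 : ∑ z, ∑ a, π z * Q z a * ((tv n (fun i => F a i - F z i)) ^ 2 + B ^ 2)
      = (∑ z, ∑ a, π z * Q z a * (tv n (fun i => F a i - F z i)) ^ 2) + B ^ 2 := by
    have h3 : ∀ z a, π z * Q z a * ((tv n (fun i => F a i - F z i)) ^ 2 + B ^ 2)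
        = π z * Q z a * (tv n (fun i => F a i - F z i)) ^ 2 + (π z * Q z a) * B ^ 2 := by
      intro z a; ring
    simp only [h3, Finset.sum_add_distrib, ← Finset.sum_mul]
    rw [sum_weight hπ1 hQ, one_mul]
  have h3 := hQ.energy
  have h4 : 2 * B * mQ π n F Q K ≤ 2 * B * B := by
    rw [h2] at h1
    nlinarith
  exact le_of_mul_le_mul_left h4 (by positivity)

lemma uncross_exp' (hπ : ∀ x, 0 ≤ π x) (hQ : GoodE π n F Q B) (K : ℕ) :
    2 * mQ π n F Q (K + 1) - eQ π n F Q K ≤ mQ π n F Q (K + 2) + mQ π n F Q K := by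
  unfold mQ eQ
  simp only [Finset.mul_sum, ← Finset.sum_sub_distrib, ← Finset.sum_add_distrib]
  refine Finset.sum_le_sum (fun z _ => Finset.sum_le_sum (fun a _ => ?_))
  set x : ℕ → ℝ := fun i => F a i - F z i
  have hp : 0 ≤ π z * Q z a := mul_nonneg (hπ z) (hQ.nonneg z a)
  have h1 := uncross_W n K x
  have h2 := W_succ n K x
  have h3 := max_eq_half (Pg n K x) (Ng n K x)
  have h4 : 2 * W n (K + 1) x - |Pg n K x - Ng n K x| ≤ W n (K + 2) x + W n K x := by
    rw [h2]; linarith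
  have h5 := mul_le_mul_of_nonneg_left h4 hp
  calc 2 * (π z * Q z a * W n (K + 1) x) - π z * Q z a * |Pg n K x - Ng n K x|
      = π z * Q z a * (2 * W n (K + 1) x - |Pg n K x - Ng n K x|) := by ring
    _ ≤ π z * Q z a * (W n (K + 2) x + W n K x) := h5
    _ = _ := by ring

/-- Expected truncated sign-imbalance. -/
noncomputable def eT (π : S → ℝ) (n : ℕ) (F : S → ℕ → ℝ) (Q : Matrix S S ℝ) (K : ℕ) (L : ℝ) : ℝ :=
  ∑ z, ∑ a, π z * Q z a *
    min |Pg n K (fun i => F a i - F z i) - Ng n K (fun i => F a i - F z i)| L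

lemma doubling_trunc (hπ : ∀ x, 0 ≤ π x) (hπ1 : ∑ x, π x = 1) (hQ : GoodE π n F Q B)
    (K : ℕ) {L : ℝ} (hL : 0 < L) :
    mQ π n F (Q * Q) (K + 1) ≤ 2 * mQ π n F Q (K + 1) - (eT π n F Q K L) ^ 2 / (2 * L) := by
  set E : S → ℝ := fun z => ∑ a, Q z a *
    min |Pg n K (fun i => F a i - F z i) - Ng n K (fun i => F a i - F z i)| L with hE
  set Mz : S → ℝ := fun z => ∑ a, Q z a * W n (K + 1) (fun i => F a i - F z i) with hMz
  have hz : ∀ z, ∑ x, ∑ y, Q z x * Q z y * W n (K + 1) (fun i => F y i - F x i)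
      ≤ 2 * Mz z - (E z) ^ 2 / (2 * L) := by
    intro z
    set f : S → ℝ := fun a => Pg n K (fun i => F a i - F z i) with hf
    set g : S → ℝ := fun a => Ng n K (fun i => F a i - F z i) with hg
    have hc := core_trunc (Q z) f g L hL (hQ.nonneg z) (hQ.row z)
    have hM : ∑ x, Q z x * max (f x) (g x) = Mz z := by
      refine Finset.sum_congr rfl (fun a _ => ?_)
      rw [W_succ]
    have hEz : ∑ x, Q z x * min |f x - g x| L = E z := rfl
    rw [hM, hEz] at hc
    refine le_trans ?_ hc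
    refine Finset.sum_le_sum (fun x _ => Finset.sum_le_sum (fun y _ => ?_))
    refine mul_le_mul_of_nonneg_left ?_ (mul_nonneg (hQ.nonneg _ _) (hQ.nonneg _ _))
    have hp := pair_bound n K (fun i => F y i - F z i) (fun i => F x i - F z i)
    have hfun : (fun i => (F y i - F z i) - (F x i - F z i)) = (fun i => F y i - F x i) := by
      funext i; ring
    rw [hfun] at hp
    exact hp
  have h1 : mQ π n F (Q * Q) (K + 1) =
      ∑ z, π z * ∑ x, ∑ y, Q z x * Q z y * W n (K + 1) (fun i => F y i - F x i) := by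
    unfold mQ
    calc ∑ x, ∑ y, π x * (Q * Q) x y * W n (K + 1) (fun i => F y i - F x i)
        = ∑ x, ∑ y, ∑ z, π z * (Q z x * Q z y * W n (K + 1) (fun i => F y i - F x i)) := by
          refine Finset.sum_congr rfl (fun x _ => Finset.sum_congr rfl (fun y _ => ?_))
          rw [Matrix.mul_apply, Finset.mul_sum, Finset.sum_mul]
          refine Finset.sum_congr rfl (fun z _ => ?_)
          have h := hQ.rev x z
          calc π x * (Q x z * Q z y) * W n (K + 1) (fun i => F y i - F x i)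
              = (π x * Q x z) * (Q z y * W n (K + 1) (fun i => F y i - F x i)) := by ring
            _ = (π z * Q z x) * (Q z y * W n (K + 1) (fun i => F y i - F x i)) := by rw [h]
            _ = _ := by ring
      _ = ∑ x, ∑ z, ∑ y, π z * (Q z x * Q z y * W n (K + 1) (fun i => F y i - F x i)) :=
          Finset.sum_congr rfl (fun x _ => Finset.sum_comm)
      _ = ∑ z, ∑ x, ∑ y, π z * (Q z x * Q z y * W n (K + 1) (fun i => F y i - F x i)) :=
          Finset.sum_comm
      _ = _ := by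
          refine Finset.sum_congr rfl (fun z _ => ?_)
          rw [Finset.mul_sum]
          refine Finset.sum_congr rfl (fun x _ => ?_)
          rw [Finset.mul_sum]
  have h2 : mQ π n F Q (K + 1) = ∑ z, π z * Mz z := by
    unfold mQ
    refine Finset.sum_congr rfl (fun z _ => ?_)
    rw [hMz, Finset.mul_sum]
    exact Finset.sum_congr rfl (fun a _ => by ring)
  have h3 : eT π n F Q K L = ∑ z, π z * E z := by
    unfold eT
    refine Finset.sum_congr rfl (fun z _ => ?_)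
    rw [hE, Finset.mul_sum]
    exact Finset.sum_congr rfl (fun a _ => by ring)
  have hJ : (∑ z, π z * E z) ^ 2 ≤ ∑ z, π z * (E z) ^ 2 := by
    have := Finset.sum_sq_le_sum_mul_sum_of_sq_le_mul (Finset.univ) (r := fun z => π z * E z)
      (f := π) (g := fun z => π z * (E z) ^ 2) (fun z _ => hπ z)
      (fun z _ => mul_nonneg (hπ z) (sq_nonneg _)) (fun z _ => le_of_eq (by ring))
    rwa [hπ1, one_mul] at this
  have h4 : ∑ z, π z * ∑ x, ∑ y, Q z x * Q z y * W n (K + 1) (fun i => F y i - F x i)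
      ≤ ∑ z, π z * (2 * Mz z - (E z) ^ 2 / (2 * L)) :=
    Finset.sum_le_sum (fun z _ => mul_le_mul_of_nonneg_left (hz z) (hπ z))
  have h5 : ∑ z, π z * (2 * Mz z - (E z) ^ 2 / (2 * L))
      = 2 * (∑ z, π z * Mz z) - (∑ z, π z * (E z) ^ 2) / (2 * L) := by
    rw [Finset.mul_sum, Finset.sum_div, ← Finset.sum_sub_distrib]
    exact Finset.sum_congr rfl (fun z _ => by ring)
  have h6 : (eT π n F Q K L) ^ 2 / (2 * L) ≤ (∑ z, π z * (E z) ^ 2) / (2 * L) := by
    rw [h3]
    exact div_le_div_of_nonneg_right hJ (by positivity)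
  rw [h1, h2]
  linarith

lemma eT_lower (hπ : ∀ x, 0 ≤ π x) (hQ : GoodE π n F Q B) (K : ℕ) {L : ℝ} (hL : 0 < L) :
    eQ π n F Q K - B ^ 2 / L ≤ eT π n F Q K L := by
  have h1 : eQ π n F Q K - (∑ z, ∑ a, π z * Q z a * (tv n (fun i => F a i - F z i)) ^ 2) / L
      ≤ eT π n F Q K L := by
    unfold eQ eT
    rw [Finset.sum_div, ← Finset.sum_sub_distrib]
    refine Finset.sum_le_sum (fun z _ => ?_)
    rw [Finset.sum_div, ← Finset.sum_sub_distrib]
    refine Finset.sum_le_sum (fun a _ => ?_)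
    set x : ℕ → ℝ := fun i => F a i - F z i
    have hp : 0 ≤ π z * Q z a := mul_nonneg (hπ z) (hQ.nonneg z a)
    set D := |Pg n K x - Ng n K x| with hD
    have hD0 : 0 ≤ D := abs_nonneg _
    have hDt : D ≤ tv n x := by
      rw [hD, abs_le]
      have h1 := Pg_nonneg n K x
      have h2 := Ng_nonneg n K x
      have h3 := Pg_le_tv n K x
      have h4 := Ng_le_tv n K x
      constructor <;> linarith
    have hmain : D - (tv n x) ^ 2 / L ≤ min D L := by
      have h5 : D ^ 2 ≤ (tv n x) ^ 2 := pow_le_pow_left₀ hD0 hDt 2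
      have h6 : D ^ 2 / L ≤ (tv n x) ^ 2 / L := div_le_div_of_nonneg_right h5 hL.le
      refine le_min ?_ ?_
      · have : 0 ≤ (tv n x) ^ 2 / L := by positivity
        linarith
      · have h7 : D ≤ L + D ^ 2 / L := by
          have h8 : L + D ^ 2 / L - D = (L ^ 2 + D ^ 2 - D * L) / L := by
            field_simp
          have h9 : 0 ≤ (L ^ 2 + D ^ 2 - D * L) / L := by
            apply div_nonneg _ hL.le
            nlinarith [sq_nonneg (L - D), mul_nonneg hL.le hD0]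
          linarith
        linarith
    have := mul_le_mul_of_nonneg_left hmain hp
    calc π z * Q z a * D - π z * Q z a * (tv n x) ^ 2 / L
        = π z * Q z a * (D - (tv n x) ^ 2 / L) := by ring
      _ ≤ _ := this
  have h2 : (∑ z, ∑ a, π z * Q z a * (tv n (fun i => F a i - F z i)) ^ 2) / L ≤ B ^ 2 / L :=
    div_le_div_of_nonneg_right hQ.energy hL.le
  linarith

lemma doubling_cubic (hπ : ∀ x, 0 ≤ π x) (hπ1 : ∑ x, π x = 1) (hB : 0 < B)
    (hQ : GoodE π n F Q B) (K : ℕ) :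
    mQ π n F (Q * Q) (K + 1) ≤ 2 * mQ π n F Q (K + 1) - (eQ π n F Q K) ^ 3 / (16 * B ^ 2) := by
  set e := eQ π n F Q K with he
  have he0 : 0 ≤ e := eQ_nonneg' hπ hQ K
  rcases he0.eq_or_lt with h0 | hpos
  · have h1 := doubling_trunc hπ hπ1 hQ K (L := 1) one_pos
    have h2 : 0 ≤ (eT π n F Q K 1) ^ 2 / (2 * 1) := by positivity
    rw [← h0]
    norm_num
    linarith
  · set L : ℝ := 2 * B ^ 2 / e with hLdef
    have hL : 0 < L := by positivity
    have h1 := doubling_trunc hπ hπ1 hQ K hL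
    have h2 := eT_lower hπ hQ K hL
    have h3 : B ^ 2 / L = e / 2 := by
      rw [hLdef]
      field_simp
    rw [h3, ← he] at h2
    have h4 : e / 2 ≤ eT π n F Q K L := by linarith
    have h5 : (e / 2) ^ 2 ≤ (eT π n F Q K L) ^ 2 := pow_le_pow_left₀ (by positivity) h4 2
    have h6 : (e / 2) ^ 2 / (2 * L) ≤ (eT π n F Q K L) ^ 2 / (2 * L) :=
      div_le_div_of_nonneg_right h5 (by positivity)
    have h7 : (e / 2) ^ 2 / (2 * L) = e ^ 3 / (16 * B ^ 2) := by
      rw [hLdef]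
      field_simp
      ring
    rw [h7] at h6
    linarith

end main

section key

variable {n : ℕ} {F : S → ℕ → ℝ}

lemma key_bound_E (π : S → ℝ) (P : Matrix S S ℝ) (hπ : ∀ x, 0 ≤ π x) (hπ1 : ∑ x, π x = 1)
    (hM : GoodE π n F P 1) (J : ℕ) :
    (J : ℝ) * (mQ π n F (P ^ (2 ^ J)) 1 / (2 : ℝ) ^ J) ^ 6 ≤ 2048 := by
  set w : ℕ → ℕ → ℝ := fun K i => mQ π n F (P ^ (2 ^ i)) K / (2 : ℝ) ^ i with hw
  set ε : ℕ → ℕ → ℝ := fun K i => eQ π n F (P ^ (2 ^ i)) K / (2 : ℝ) ^ i with hε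
  have hBpos : ∀ i : ℕ, (0 : ℝ) < (2 : ℝ) ^ i := fun i => by positivity
  exact seq_bound_cubic w ε
    (by intro i; simp only [hw, mQ_zero, zero_div])
    (by
      intro K i
      have hg := goodE_pow hπ hM i
      exact ⟨div_nonneg (mQ_nonneg' hπ hg K) (hBpos i).le,
        (div_le_one (hBpos i)).2 (mQ_le' hπ hπ1 (hBpos i) hg K)⟩)
    (by
      intro K i
      exact div_nonneg (eQ_nonneg' hπ (goodE_pow hπ hM i) K) (hBpos i).le)
    (by
      intro K i
      have hg := goodE_pow hπ hM i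
      have hd := doubling_cubic hπ hπ1 (hBpos i) hg K
      have h1 : P ^ (2 ^ (i + 1)) = P ^ (2 ^ i) * P ^ (2 ^ i) := by
        rw [pow_succ 2 i, pow_mul, sq]
      simp only [hw, hε]
      rw [h1, pow_succ' (2 : ℝ) i]
      have hB := hBpos i
      set B : ℝ := (2 : ℝ) ^ i
      set m' := mQ π n F (P ^ (2 ^ i) * P ^ (2 ^ i)) (K + 1)
      set m := mQ π n F (P ^ (2 ^ i)) (K + 1)
      set e := eQ π n F (P ^ (2 ^ i)) K
      have h2 : m / B - (e / B) ^ 3 / 32 = (2 * m - e ^ 3 / (16 * B ^ 2)) / (2 * B) := by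
        field_simp
        ring
      rw [h2]
      exact div_le_div_of_nonneg_right hd (by positivity))
    (by
      intro K i
      have hg := goodE_pow hπ hM i
      have hd := uncross_exp' hπ hg K
      simp only [hw, hε]
      have hB := hBpos i
      have h2 : 2 * (mQ π n F (P ^ (2 ^ i)) (K + 1) / (2 : ℝ) ^ i)
          - eQ π n F (P ^ (2 ^ i)) K / (2 : ℝ) ^ i
          = (2 * mQ π n F (P ^ (2 ^ i)) (K + 1) - eQ π n F (P ^ (2 ^ i)) K) / (2 : ℝ) ^ i := by
        ring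
      have h3 : mQ π n F (P ^ (2 ^ i)) (K + 2) / (2 : ℝ) ^ i
          + mQ π n F (P ^ (2 ^ i)) K / (2 : ℝ) ^ i
          = (mQ π n F (P ^ (2 ^ i)) (K + 2) + mQ π n F (P ^ (2 ^ i)) K) / (2 : ℝ) ^ i := by
        ring
      rw [h2, h3]
      exact div_le_div_of_nonneg_right hd hB.le)
    J

end key

/-- The estimate under the energy hypothesis, at times `2 ^ J`. -/
theorem energy_bound (π : S → ℝ) (P : Matrix S S ℝ) (hπ : ∀ x, 0 ≤ π x) (hπ1 : ∑ x, π x = 1)
    (hP : ∀ x y, 0 ≤ P x y) (hP1 : ∀ x, ∑ y, P x y = 1)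
    (hrev : ∀ x y, π x * P x y = π y * P y x) (n : ℕ) (F : S → ℕ → ℝ)
    (hF : ∑ x, ∑ y, π x * P x y * (tv n (fun i => F y i - F x i)) ^ 2 ≤ 1) (J : ℕ) :
    (J : ℝ) * (∑ x, ∑ y, π x * (P ^ (2 ^ J)) x y * osc n (fun i => F y i - F x i)) ^ 6
      ≤ 2048 * ((2 : ℝ) ^ J) ^ 6 := by
  have hM : GoodE π n F P 1 := ⟨hP, hP1, hrev, by simpa using hF⟩
  have key := key_bound_E π P hπ hπ1 hM J
  have hg := goodE_pow hπ hM J
  have hB : (0 : ℝ) < (2 : ℝ) ^ J := by positivity
  have hE0 : 0 ≤ ∑ x, ∑ y, π x * (P ^ (2 ^ J)) x y * osc n (fun i => F y i - F x i) :=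
    Finset.sum_nonneg (fun x _ => Finset.sum_nonneg (fun y _ =>
      mul_nonneg (mul_nonneg (hπ x) (hg.nonneg x y)) (osc_nonneg _ _)))
  have hE1 : ∑ x, ∑ y, π x * (P ^ (2 ^ J)) x y * osc n (fun i => F y i - F x i)
      ≤ mQ π n F (P ^ (2 ^ J)) 1 :=
    Finset.sum_le_sum (fun x _ => Finset.sum_le_sum (fun y _ =>
      mul_le_mul_of_nonneg_left (osc_le_W _ _) (mul_nonneg (hπ x) (hg.nonneg x y))))
  set ρ := mQ π n F (P ^ (2 ^ J)) 1 / (2 : ℝ) ^ J with hρ
  have hE2 : mQ π n F (P ^ (2 ^ J)) 1 = (2 : ℝ) ^ J * ρ := by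
    rw [hρ]
    field_simp
  have hE3 := pow_le_pow_left₀ hE0 (hE1.trans_eq hE2) 6
  calc (J : ℝ) * (∑ x, ∑ y, π x * (P ^ (2 ^ J)) x y * osc n (fun i => F y i - F x i)) ^ 6
      ≤ (J : ℝ) * ((2 : ℝ) ^ J * ρ) ^ 6 :=
        mul_le_mul_of_nonneg_left hE3 (Nat.cast_nonneg _)
    _ = ((J : ℝ) * ρ ^ 6) * ((2 : ℝ) ^ J) ^ 6 := by ring
    _ ≤ 2048 * ((2 : ℝ) ^ J) ^ 6 := mul_le_mul_of_nonneg_right key (by positivity)

end Vale.Agent.P125

namespace Vale.Agent.P125

open Finset

variable {S : Type*} [Fintype S] [DecidableEq S]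

lemma six_pow_add_le (a b : ℝ) : (a + b) ^ 6 ≤ 32 * (a ^ 6 + b ^ 6) := by
  have hu : 0 ≤ a ^ 2 := sq_nonneg a
  have hv : 0 ≤ b ^ 2 := sq_nonneg b
  have h1 : (a + b) ^ 2 ≤ 2 * (a ^ 2 + b ^ 2) := by nlinarith [sq_nonneg (a - b)]
  have h3 : ((a + b) ^ 2) ^ 3 ≤ (2 * (a ^ 2 + b ^ 2)) ^ 3 :=
    pow_le_pow_left₀ (sq_nonneg _) h1 3
  have h4 : (a ^ 2 + b ^ 2) ^ 3 ≤ 4 * (a ^ 6 + b ^ 6) := by
    have h5 := mul_nonneg (add_nonneg hu hv) (sq_nonneg (a ^ 2 - b ^ 2))
    nlinarith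
  nlinarith

/-- The estimate under the energy hypothesis, at all times. -/
theorem energy_all_times (π : S → ℝ) (P : Matrix S S ℝ) (hπ : ∀ x, 0 ≤ π x) (hπ1 : ∑ x, π x = 1)
    (hP : ∀ x y, 0 ≤ P x y) (hP1 : ∀ x, ∑ y, P x y = 1)
    (hrev : ∀ x y, π x * P x y = π y * P y x) (n : ℕ) (F : S → ℕ → ℝ)
    (hF : ∑ x, ∑ y, π x * P x y * (tv n (fun i => F y i - F x i)) ^ 2 ≤ 1) (t J : ℕ)
    (hJ : 4 ^ J ≤ t) :
    (J : ℝ) * (∑ x, ∑ y, π x * (P ^ t) x y * osc n (fun i => F y i - F x i)) ^ 6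
      ≤ 65568 * (t : ℝ) ^ 6 := by
  have hM : GoodE π n F P 1 := ⟨hP, hP1, hrev, by simpa using hF⟩
  have hM0 : Good π n (fun _ _ => (0 : ℝ)) P 1 :=
    ⟨hP, hP1, hrev, fun x y _ => by simp [tv]⟩
  set B' : ℝ := ∑ x, ∑ y, tv n (fun i => F y i - F x i) with hB'
  have hsingle : ∀ x y, tv n (fun i => F y i - F x i) ≤ B' := by
    intro x y
    have h1 : tv n (fun i => F y i - F x i) ≤ ∑ y, tv n (fun i => F y i - F x i) :=
      Finset.single_le_sum (f := fun y => tv n (fun i => F y i - F x i))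
        (fun _ _ => tv_nonneg _ _) (Finset.mem_univ y)
    have h2 : ∑ y, tv n (fun i => F y i - F x i) ≤ B' :=
      Finset.single_le_sum (f := fun x => ∑ y, tv n (fun i => F y i - F x i))
        (fun _ _ => Finset.sum_nonneg (fun _ _ => tv_nonneg _ _)) (Finset.mem_univ x)
    exact h1.trans h2
  have hG : ∀ u, Good π n F (P ^ u) B' := by
    intro u
    have g0 := good_pow_all hM0 u
    exact ⟨g0.nonneg, g0.row, g0.rev, fun x y _ => hsingle x y⟩
  set a : ℕ → ℝ := fun u => mQ π n F (P ^ u) 1 with ha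
  have hadd : ∀ u v, a (u + v) ≤ a u + a v := by
    intro u v
    simp only [ha, pow_add]
    exact mQ_mul_le hπ (hG u) (hG v) 1
  have hzero : a 0 ≤ 0 := by
    have g0 := good_pow_all hM0 0
    have hg : Good π n F (P ^ 0) 0 := by
      refine ⟨g0.nonneg, g0.row, g0.rev, ?_⟩
      intro x y h
      rw [pow_zero] at h
      by_cases hxy : x = y
      · subst hxy; simp [tv]
      · exact absurd (Matrix.one_apply_ne hxy) h
    exact mQ_le hπ hπ1 hg 1
  have hone : a 1 ≤ 1 := by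
    have := mQ_le' hπ hπ1 one_pos hM 1
    simpa [ha] using this
  have hle : ∀ u : ℕ, a u ≤ u := by
    intro u
    induction u with
    | zero => simpa using hzero
    | succ u ih =>
      have := hadd u 1
      push_cast
      linarith
  have ha0 : ∀ u, 0 ≤ a u := fun u => mQ_nonneg hπ (hG u) 1
  set d : ℕ := 2 ^ J with hd
  have hdpos : 0 < d := by positivity
  have hdR : (0 : ℝ) < d := by exact_mod_cast hdpos
  have hmulle : ∀ r : ℕ, a (r * d) ≤ r * a d := by
    intro r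
    induction r with
    | zero => simpa using hzero
    | succ r ih =>
      have h1 : (r + 1) * d = r * d + d := by ring
      rw [h1]
      have h2 := hadd (r * d) d
      push_cast
      linarith
  set r : ℕ := t / d with hr
  set s : ℕ := t % d with hs
  have htd : r * d + s = t := by
    rw [hr, hs, mul_comm]
    exact Nat.div_add_mod t d
  have hsd : s < d := Nat.mod_lt _ hdpos
  have hat : a t ≤ r * a d + s := by
    rw [← htd]
    have h1 := hadd (r * d) s
    have h2 := hmulle r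
    have h3 := hle s
    linarith
  set X : ℝ := a d / d with hX
  have hX0 : 0 ≤ X := div_nonneg (ha0 d) hdR.le
  have hadX : a d = d * X := by rw [hX]; field_simp
  have hrd : (r : ℝ) * d ≤ t := by
    have : r * d ≤ t := by omega
    exact_mod_cast this
  have hdd : (d : ℝ) * d ≤ t := by
    have h1 : d * d = 4 ^ J := by
      rw [hd, ← mul_pow]
      norm_num
    have h2 : d * d ≤ t := h1 ▸ hJ
    exact_mod_cast h2
  have hdt : (d : ℝ) ≤ t * (1 / d) := by
    rw [mul_one_div, le_div_iff₀ hdR]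
    exact hdd
  have hsR : (s : ℝ) ≤ d := by exact_mod_cast hsd.le
  have hat2 : a t ≤ t * (X + 1 / d) := by
    have h1 : (r : ℝ) * a d ≤ t * X := by
      rw [hadX, ← mul_assoc]
      exact mul_le_mul_of_nonneg_right hrd hX0
    calc a t ≤ r * a d + s := hat
      _ ≤ t * X + t * (1 / d) := by linarith
      _ = _ := by ring
  have hkey : (J : ℝ) * X ^ 6 ≤ 2048 := by
    have := key_bound_E π P hπ hπ1 hM J
    have hcast : ((2 : ℝ) ^ J) = (d : ℝ) := by rw [hd]; push_cast; rfl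
    rw [hcast] at this
    exact this
  have hJd : (J : ℝ) * (1 / (d : ℝ)) ^ 6 ≤ 1 := by
    have h1 : (J : ℝ) ≤ d := by
      have : J < 2 ^ J := Nat.lt_two_pow_self
      exact_mod_cast this.le
    have h2 : (1 : ℝ) ≤ d := by exact_mod_cast hdpos
    have h3 : (d : ℝ) ≤ (d : ℝ) ^ 6 := by
      have := pow_le_pow_right₀ h2 (show 1 ≤ 6 by norm_num)
      simpa using this
    rw [one_div, inv_pow, ← div_eq_mul_inv, div_le_one (by positivity)]
    exact h1.trans h3
  have hfac : (J : ℝ) * (X + 1 / d) ^ 6 ≤ 65568 := by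
    have h1 := six_pow_add_le X (1 / (d : ℝ))
    have hJ0 : (0 : ℝ) ≤ J := Nat.cast_nonneg _
    have h2 := mul_le_mul_of_nonneg_left h1 hJ0
    nlinarith
  have hg := hG t
  have hE0 : 0 ≤ ∑ x, ∑ y, π x * (P ^ t) x y * osc n (fun i => F y i - F x i) :=
    Finset.sum_nonneg (fun x _ => Finset.sum_nonneg (fun y _ =>
      mul_nonneg (mul_nonneg (hπ x) (hg.nonneg x y)) (osc_nonneg _ _)))
  have hE1 : ∑ x, ∑ y, π x * (P ^ t) x y * osc n (fun i => F y i - F x i) ≤ a t :=
    Finset.sum_le_sum (fun x _ => Finset.sum_le_sum (fun y _ =>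
      mul_le_mul_of_nonneg_left (osc_le_W _ _) (mul_nonneg (hπ x) (hg.nonneg x y))))
  have hE3 := pow_le_pow_left₀ hE0 (hE1.trans hat2) 6
  calc (J : ℝ) * (∑ x, ∑ y, π x * (P ^ t) x y * osc n (fun i => F y i - F x i)) ^ 6
      ≤ (J : ℝ) * ((t : ℝ) * (X + 1 / d)) ^ 6 :=
        mul_le_mul_of_nonneg_left hE3 (Nat.cast_nonneg _)
    _ = ((J : ℝ) * (X + 1 / d) ^ 6) * (t : ℝ) ^ 6 := by ring
    _ ≤ 65568 * (t : ℝ) ^ 6 := mul_le_mul_of_nonneg_right hfac (by positivity)

end Vale.Agent.P125
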