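import Mathlib

namespace Vale.Agent.P125

open Finset

/-- The potential argument with a decrement of degree `m + 2`. -/
lemma seq_bound_deg (m : ℕ) (w ε : ℕ → ℕ → ℝ) (h0 : ∀ i, w 0 i = 0)
    (hb : ∀ K i, 0 ≤ w K i ∧ w K i ≤ 1) (he : ∀ K i, 0 ≤ ε K i)
    (hd : ∀ K i, w (K + 1) (i + 1) ≤ w (K + 1) i - (ε K i) ^ (m + 2) / 2 ^ (m + 4))
    (hu : ∀ K i, 2 * w (K + 1) i - ε K i ≤ w (K + 2) i + w K i) (J : ℕ) :
    (J : ℝ) * (w 1 J) ^ (2 * m + 4) ≤ 2 ^ (3 * m + 8) := by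
  set ρ := w 1 J with hρdef
  rcases (show 0 ≤ ρ from (hb 1 J).1).eq_or_lt with hρ0 | hρ
  · rw [← hρ0]
    have : (0 : ℝ) ^ (2 * m + 4) = 0 := by
      rw [zero_pow]; omega
    rw [this, mul_zero]
    positivity
  have hρne : ρ ≠ 0 := hρ.ne'
  have hρ1 : ρ ≤ 1 := (hb 1 J).2
  have hmono : ∀ i, w 1 (i + 1) ≤ w 1 i := by
    intro i
    have := hd 0 i
    have h2 : 0 ≤ (ε 0 i) ^ (m + 2) / 2 ^ (m + 4) :=
      div_nonneg (pow_nonneg (he 0 i) _) (by positivity)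
    simp only [zero_add] at this
    linarith
  have hge : ∀ i, i ≤ J → ρ ≤ w 1 i := by
    intro i hi
    have : Antitone (w 1) := antitone_nat_of_succ_le hmono
    exact this hi
  obtain ⟨L, hL1, hL2, hL3⟩ : ∃ L : ℕ, 1 ≤ L ∧ (L : ℝ) ≤ 2 / ρ ∧ 2 / ρ ≤ (L : ℝ) + 1 := by
    have h2 : 2 ≤ 2 / ρ := by
      rw [le_div_iff₀ hρ]; linarith
    refine ⟨⌈2 / ρ⌉₊ - 1, ?_, ?_, ?_⟩
    · have h2' : (2 : ℝ) ≤ (⌈2 / ρ⌉₊ : ℝ) := h2.trans (Nat.le_ceil _)
      have : 2 ≤ ⌈2 / ρ⌉₊ := by exact_mod_cast h2'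
      omega
    · have hc : (⌈2 / ρ⌉₊ : ℝ) < 2 / ρ + 1 := Nat.ceil_lt_add_one (by linarith)
      have hpos : 1 ≤ ⌈2 / ρ⌉₊ := Nat.one_le_ceil_iff.mpr (by linarith)
      rw [Nat.cast_sub hpos]
      push_cast
      linarith
    · have hc : 2 / ρ ≤ (⌈2 / ρ⌉₊ : ℝ) := Nat.le_ceil _
      have hpos : 1 ≤ ⌈2 / ρ⌉₊ := Nat.one_le_ceil_iff.mpr (by linarith)
      rw [Nat.cast_sub hpos]
      push_cast
      linarith
  have hLpos : (0 : ℝ) < L := by exact_mod_cast hL1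
  have henergy : ∀ i, i ≤ J →
      (ρ / 2) ^ (m + 2) / (L : ℝ) ^ (m + 1) ≤ ∑ k ∈ range L, (ε k i) ^ (m + 2) := by
    intro i hi
    set T := ∑ k ∈ range L, ε k i with hT
    have hw1 := hge i hi
    have hdiff : ∀ K, K ≤ L → w 1 i - ∑ k ∈ range K, ε k i ≤ w (K + 1) i - w K i := by
      intro K
      induction K with
      | zero =>
        intro _
        simp [h0]
      | succ K ih =>
        intro hK
        have := ih (by omega)
        have h3 := hu K i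
        rw [Finset.sum_range_succ]
        have h4 : w (K + 1 + 1) i = w (K + 2) i := rfl
        rw [h4]
        linarith
    have hdiff2 : ∀ K, K ≤ L → w 1 i - T ≤ w (K + 1) i - w K i := by
      intro K hK
      have h5 : ∑ k ∈ range K, ε k i ≤ T :=
        Finset.sum_le_sum_of_subset_of_nonneg (Finset.range_subset_range.2 hK)
          (fun _ _ _ => he _ _)
      have := hdiff K hK
      linarith
    have hsum : ∀ K, K ≤ L + 1 → (K : ℝ) * (w 1 i - T) ≤ w K i := by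
      intro K
      induction K with
      | zero => intro _; simp [h0]
      | succ K ih =>
        intro hK
        have h6 := ih (by omega)
        have h7 := hdiff2 K (by omega)
        push_cast
        linarith
    have hfin := hsum (L + 1) le_rfl
    have hle1 := (hb (L + 1) i).2
    push_cast at hfin
    have hTρ : ρ / 2 ≤ T := by
      by_contra hcon
      push Not at hcon
      have h8 : ρ / 2 < w 1 i - T := by linarith
      have h9 : 0 < (L : ℝ) + 1 := by linarith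
      have h10 : ((L : ℝ) + 1) * (ρ / 2) < 1 := by
        calc ((L : ℝ) + 1) * (ρ / 2) < ((L : ℝ) + 1) * (w 1 i - T) :=
              mul_lt_mul_of_pos_left h8 h9
          _ ≤ 1 := hfin.trans hle1
      have h11 : 2 / ρ * (ρ / 2) = 1 := by field_simp
      have h12 : 2 / ρ * (ρ / 2) ≤ ((L : ℝ) + 1) * (ρ / 2) :=
        mul_le_mul_of_nonneg_right hL3 (by linarith)
      linarith
    have hCS : T ^ (m + 2) / (L : ℝ) ^ (m + 1) ≤ ∑ k ∈ range L, (ε k i) ^ (m + 2) := by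
      have := pow_sum_div_card_le_sum_pow (s := range L) (f := fun k => ε k i)
        (fun k _ => he k i) (m + 1)
      simpa using this
    have h13 : (ρ / 2) ^ (m + 2) ≤ T ^ (m + 2) := pow_le_pow_left₀ (by linarith) hTρ _
    refine le_trans ?_ hCS
    exact div_le_div_of_nonneg_right h13 (by positivity)
  set δ : ℝ := (ρ / 2) ^ (m + 2) / (L : ℝ) ^ (m + 1) / 2 ^ (m + 4) with hδ
  set Φ : ℕ → ℝ := fun i => ∑ k ∈ range L, w (k + 1) i with hΦ
  have hΦstep : ∀ i, i < J → Φ (i + 1) ≤ Φ i - δ := by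
    intro i hi
    have h14 : Φ (i + 1) ≤ Φ i - (∑ k ∈ range L, (ε k i) ^ (m + 2)) / 2 ^ (m + 4) := by
      simp only [hΦ]
      rw [Finset.sum_div, ← Finset.sum_sub_distrib]
      exact Finset.sum_le_sum (fun k _ => hd k i)
    have h15 := henergy i hi.le
    have h16 : δ ≤ (∑ k ∈ range L, (ε k i) ^ (m + 2)) / 2 ^ (m + 4) :=
      div_le_div_of_nonneg_right h15 (by positivity)
    linarith
  have hΦiter : ∀ i, i ≤ J → Φ i ≤ Φ 0 - (i : ℝ) * δ := by
    intro i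
    induction i with
    | zero => intro _; simp
    | succ i ih =>
      intro hi
      have h17 := ih (by omega)
      have h18 := hΦstep i (by omega)
      push_cast
      linarith
  have hΦ0 : Φ 0 ≤ L := by
    have : Φ 0 ≤ ∑ k ∈ range L, (1 : ℝ) := Finset.sum_le_sum (fun k _ => (hb (k + 1) 0).2)
    simpa using this
  have hΦJ : 0 ≤ Φ J := Finset.sum_nonneg (fun k _ => (hb (k + 1) J).1)
  have hfinal := hΦiter J le_rfl
  have h19 : (J : ℝ) * δ ≤ L := by linarith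
  -- clear denominators
  have h20 : (J : ℝ) * ρ ^ (m + 2) ≤ 2 ^ (2 * m + 6) * (L : ℝ) ^ (m + 2) := by
    have h21 : (J : ℝ) * δ = (J : ℝ) * ρ ^ (m + 2) / (2 ^ (m + 2) * (L : ℝ) ^ (m + 1) * 2 ^ (m + 4)) := by
      rw [hδ, div_pow]
      field_simp
    rw [h21, div_le_iff₀ (by positivity)] at h19
    calc (J : ℝ) * ρ ^ (m + 2) ≤ (L : ℝ) * (2 ^ (m + 2) * (L : ℝ) ^ (m + 1) * 2 ^ (m + 4)) := h19
      _ = _ := by ring
  have h22 : (L : ℝ) * ρ ≤ 2 := by
    have := mul_le_mul_of_nonneg_right hL2 hρ.le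
    have h23 : 2 / ρ * ρ = 2 := by field_simp
    linarith
  have h24 : ((L : ℝ) * ρ) ^ (m + 2) ≤ 2 ^ (m + 2) := pow_le_pow_left₀ (by positivity) h22 _
  calc (J : ℝ) * ρ ^ (2 * m + 4) = ((J : ℝ) * ρ ^ (m + 2)) * ρ ^ (m + 2) := by ring
    _ ≤ (2 ^ (2 * m + 6) * (L : ℝ) ^ (m + 2)) * ρ ^ (m + 2) :=
        mul_le_mul_of_nonneg_right h20 (by positivity)
    _ = 2 ^ (2 * m + 6) * ((L : ℝ) * ρ) ^ (m + 2) := by ring
    _ ≤ 2 ^ (2 * m + 6) * 2 ^ (m + 2) := mul_le_mul_of_nonneg_left h24 (by positivity)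
    _ = 2 ^ (3 * m + 8) := by ring

end Vale.Agent.P125
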