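import Vale.Agent.P125.EnergyChain
import Vale.Agent.P125.SeqP

namespace Vale.Agent.P125

open Finset

variable {S : Type*} [Fintype S] [DecidableEq S]

/-- A reversible transition matrix whose edges have `p`-energy at most `B ^ p`. -/
structure GoodP (π : S → ℝ) (n : ℕ) (F : S → ℕ → ℝ) (Q : Matrix S S ℝ) (B p : ℝ) : Prop where
  nonneg : ∀ x y, 0 ≤ Q x y
  row : ∀ x, ∑ y, Q x y = 1
  rev : ∀ x y, π x * Q x y = π y * Q y x
  energy : ∑ x, ∑ y, π x * Q x y * (tv n (fun i => F y i - F x i)) ^ p ≤ B ^ p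

lemma add_rpow_le' {a b p : ℝ} (ha : 0 ≤ a) (hb : 0 ≤ b) (hp : 1 ≤ p) :
    (a + b) ^ p ≤ 2 ^ (p - 1) * (a ^ p + b ^ p) := by
  lift a to NNReal using ha
  lift b to NNReal using hb
  exact_mod_cast NNReal.rpow_add_le_mul_rpow_add_rpow a b hp

section main

variable {π : S → ℝ} {n : ℕ} {F : S → ℕ → ℝ} {Q : Matrix S S ℝ} {B p : ℝ}

lemma GoodP.toE (hQ : GoodP π n F Q B p) : GoodE π n F Q
    (1 + |∑ x, ∑ y, π x * Q x y * (tv n (fun i => F y i - F x i)) ^ 2|) := by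
  refine ⟨hQ.nonneg, hQ.row, hQ.rev, ?_⟩
  set X := ∑ x, ∑ y, π x * Q x y * (tv n (fun i => F y i - F x i)) ^ 2
  nlinarith [abs_nonneg X, le_abs_self X]

lemma GoodP.mul (hπ : ∀ x, 0 ≤ π x) (hp : 1 ≤ p) (hB : 0 ≤ B) (hQ : GoodP π n F Q B p) :
    GoodP π n F (Q * Q) (2 * B) p := by
  have hE := hQ.toE
  have hEm := hE.mul hπ
  refine ⟨hEm.nonneg, hEm.row, hEm.rev, ?_⟩
  have h1 : ∑ x, ∑ y, π x * (Q * Q) x y * (tv n (fun i => F y i - F x i)) ^ p
      ≤ ∑ x, ∑ y, ∑ z, (π x * Q x z * Q z y) * (2 ^ (p - 1) *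
        ((tv n (fun i => F y i - F z i)) ^ p + (tv n (fun i => F z i - F x i)) ^ p)) := by
    refine Finset.sum_le_sum (fun x _ => Finset.sum_le_sum (fun y _ => ?_))
    rw [Matrix.mul_apply, Finset.mul_sum, Finset.sum_mul]
    refine Finset.sum_le_sum (fun z _ => ?_)
    have hnn : 0 ≤ π x * Q x z * Q z y :=
      mul_nonneg (mul_nonneg (hπ x) (hQ.nonneg x z)) (hQ.nonneg z y)
    have ht := tv_triangle_nonneg (n := n) (F := F) x y z
    have h0 := tv_nonneg n (fun i => F y i - F x i)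
    have ha := tv_nonneg n (fun i => F y i - F z i)
    have hb := tv_nonneg n (fun i => F z i - F x i)
    have h2 : (tv n (fun i => F y i - F x i)) ^ p ≤ 2 ^ (p - 1) *
        ((tv n (fun i => F y i - F z i)) ^ p + (tv n (fun i => F z i - F x i)) ^ p) :=
      (Real.rpow_le_rpow h0 ht (by linarith)).trans (add_rpow_le' ha hb hp)
    have := mul_le_mul_of_nonneg_left h2 hnn
    calc π x * (Q x z * Q z y) * (tv n (fun i => F y i - F x i)) ^ p
        = π x * Q x z * Q z y * (tv n (fun i => F y i - F x i)) ^ p := by ring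
      _ ≤ _ := this
  refine h1.trans ?_
  have h2 : ∀ x y z, (π x * Q x z * Q z y) * (2 ^ (p - 1) *
        ((tv n (fun i => F y i - F z i)) ^ p + (tv n (fun i => F z i - F x i)) ^ p))
      = 2 ^ (p - 1) * ((π x * Q x z * Q z y) * (tv n (fun i => F y i - F z i)) ^ p)
        + 2 ^ (p - 1) * ((π x * Q x z * Q z y) * (tv n (fun i => F z i - F x i)) ^ p) := by
    intro x y z; ring
  simp only [h2, Finset.sum_add_distrib, ← Finset.mul_sum]
  rw [split_right hE (fun a z => (tv n (fun i => F a i - F z i)) ^ p),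
    split_left hE (fun z x => (tv n (fun i => F z i - F x i)) ^ p)]
  have h3 := hQ.energy
  have h4 : (0 : ℝ) < 2 ^ (p - 1) := by positivity
  have h5 : (2 * B) ^ p = 2 ^ (p - 1) * (B ^ p + B ^ p) := by
    rw [Real.mul_rpow (by norm_num) hB, Real.rpow_sub_one (by norm_num)]
    ring
  rw [h5, ← mul_add]
  exact mul_le_mul_of_nonneg_left (add_le_add h3 h3) h4.le

lemma goodP_pow (hπ : ∀ x, 0 ≤ π x) (hp : 1 ≤ p) {P : Matrix S S ℝ} (hM : GoodP π n F P 1 p)
    (i : ℕ) : GoodP π n F (P ^ (2 ^ i)) ((2 : ℝ) ^ i) p := by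
  induction i with
  | zero => simpa using hM
  | succ i ih =>
    have h1 : P ^ (2 ^ (i + 1)) = P ^ (2 ^ i) * P ^ (2 ^ i) := by
      rw [pow_succ 2 i, pow_mul, sq]
    rw [h1, pow_succ' (2 : ℝ) i]
    exact ih.mul hπ hp (by positivity)

lemma mQ_leP (hπ : ∀ x, 0 ≤ π x) (hπ1 : ∑ x, π x = 1) (hp : 1 ≤ p) (hB : 0 ≤ B)
    (hQ : GoodP π n F Q B p) (K : ℕ) : mQ π n F Q K ≤ B := by
  have hp0 : 0 < p := by linarith
  have h1 : mQ π n F Q K ≤ ∑ z, ∑ a, π z * Q z a * tv n (fun i => F a i - F z i) :=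
    Finset.sum_le_sum (fun z _ => Finset.sum_le_sum (fun a _ =>
      mul_le_mul_of_nonneg_left (W_le_tv _ _ _) (mul_nonneg (hπ z) (hQ.nonneg z a))))
  have hw1 : ∑ q : S × S, π q.1 * Q q.1 q.2 = 1 := by
    rw [Fintype.sum_prod_type]
    exact sum_weight hπ1 hQ.toE
  have hJ := Real.rpow_arith_mean_le_arith_mean_rpow (Finset.univ : Finset (S × S))
    (fun q => π q.1 * Q q.1 q.2) (fun q => tv n (fun i => F q.2 i - F q.1 i))
    (fun q _ => mul_nonneg (hπ q.1) (hQ.nonneg q.1 q.2)) hw1 (fun q _ => tv_nonneg _ _) hp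
  rw [Fintype.sum_prod_type, Fintype.sum_prod_type] at hJ
  have h0 : 0 ≤ ∑ z, ∑ a, π z * Q z a * tv n (fun i => F a i - F z i) :=
    Finset.sum_nonneg (fun z _ => Finset.sum_nonneg (fun a _ =>
      mul_nonneg (mul_nonneg (hπ z) (hQ.nonneg z a)) (tv_nonneg _ _)))
  have h2 : (∑ z, ∑ a, π z * Q z a * tv n (fun i => F a i - F z i)) ^ p ≤ B ^ p :=
    hJ.trans hQ.energy
  have h3 := (Real.rpow_le_rpow_iff h0 hB hp0).1 h2
  exact h1.trans h3

lemma eT_lowerP (hπ : ∀ x, 0 ≤ π x) (hp : 1 ≤ p) (hQ : GoodP π n F Q B p) (K : ℕ) {L : ℝ}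
    (hL : 0 < L) :
    eQ π n F Q K - B ^ p / L ^ (p - 1) ≤ eT π n F Q K L := by
  have hLq : 0 < L ^ (p - 1) := by positivity
  have h1 : eQ π n F Q K
      - (∑ z, ∑ a, π z * Q z a * (tv n (fun i => F a i - F z i)) ^ p) / L ^ (p - 1)
      ≤ eT π n F Q K L := by
    unfold eQ eT
    rw [Finset.sum_div, ← Finset.sum_sub_distrib]
    refine Finset.sum_le_sum (fun z _ => ?_)
    rw [Finset.sum_div, ← Finset.sum_sub_distrib]
    refine Finset.sum_le_sum (fun a _ => ?_)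
    set x : ℕ → ℝ := fun i => F a i - F z i
    have hq : 0 ≤ π z * Q z a := mul_nonneg (hπ z) (hQ.nonneg z a)
    set D := |Pg n K x - Ng n K x| with hD
    have hD0 : 0 ≤ D := abs_nonneg _
    have hDt : D ≤ tv n x := by
      rw [hD, abs_le]
      have h1 := Pg_nonneg n K x
      have h2 := Ng_nonneg n K x
      have h3 := Pg_le_tv n K x
      have h4 := Ng_le_tv n K x
      constructor <;> linarith
    have ht0 : 0 ≤ (tv n x) ^ p / L ^ (p - 1) := by
      have := tv_nonneg n x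
      positivity
    have hmain : D - (tv n x) ^ p / L ^ (p - 1) ≤ min D L := by
      refine le_min (by linarith) ?_
      by_cases hDL : D ≤ L
      · linarith
      · push Not at hDL
        have hDpos : 0 < D := hL.trans hDL
        have h5 : D ^ p ≤ (tv n x) ^ p := Real.rpow_le_rpow hD0 hDt (by linarith)
        have h6 : L ^ (p - 1) ≤ D ^ (p - 1) :=
          Real.rpow_le_rpow hL.le hDL.le (by linarith)
        have h7 : D ^ p = D ^ (p - 1) * D := by
          rw [Real.rpow_sub_one hDpos.ne']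
          field_simp
        have h8 : L ^ (p - 1) * D ≤ (tv n x) ^ p := by
          rw [h7] at h5
          exact (mul_le_mul_of_nonneg_right h6 hD0).trans h5
        have h9 : D ≤ (tv n x) ^ p / L ^ (p - 1) := by
          rw [le_div_iff₀ hLq]
          linarith
        linarith
    have := mul_le_mul_of_nonneg_left hmain hq
    calc π z * Q z a * D - π z * Q z a * (tv n x) ^ p / L ^ (p - 1)
        = π z * Q z a * (D - (tv n x) ^ p / L ^ (p - 1)) := by ring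
      _ ≤ _ := this
  have h2 : (∑ z, ∑ a, π z * Q z a * (tv n (fun i => F a i - F z i)) ^ p) / L ^ (p - 1)
      ≤ B ^ p / L ^ (p - 1) :=
    div_le_div_of_nonneg_right hQ.energy hLq.le
  linarith

lemma doublingP (m : ℕ) (hm : 1 ≤ m) (hπ : ∀ x, 0 ≤ π x) (hπ1 : ∑ x, π x = 1) (hB : 0 < B)
    (hQ : GoodP π n F Q B (1 + 1 / (m : ℝ))) (K : ℕ) :
    mQ π n F (Q * Q) (K + 1) ≤ 2 * mQ π n F Q (K + 1)
      - (eQ π n F Q K) ^ (m + 2) / (2 ^ (m + 3) * B ^ (m + 1)) := by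
  have hmR : (0 : ℝ) < m := by exact_mod_cast hm
  set p : ℝ := 1 + 1 / (m : ℝ) with hp
  have hp1 : 1 ≤ p := by
    have : 0 ≤ 1 / (m : ℝ) := by positivity
    linarith
  have hE := hQ.toE
  set e := eQ π n F Q K with he
  have he0 : 0 ≤ e := eQ_nonneg' hπ hE K
  rcases he0.eq_or_lt with h0 | hpos
  · have h1 := doubling_trunc hπ hπ1 hE K (L := 1) one_pos
    have h2 : 0 ≤ (eT π n F Q K 1) ^ 2 / (2 * 1) := by positivity
    rw [← h0, zero_pow (by omega), zero_div]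
    linarith
  · set Y : ℝ := 2 * B ^ p / e with hY
    have hY0 : 0 < Y := by positivity
    set L : ℝ := Y ^ m with hLdef
    have hL : 0 < L := by positivity
    have h1 := doubling_trunc hπ hπ1 hE K hL
    have h2 := eT_lowerP hπ hp1 hQ K hL
    have hLq : L ^ (p - 1) = Y := by
      have : p - 1 = ((m : ℝ))⁻¹ := by rw [hp]; field_simp; ring
      rw [this, hLdef]
      exact Real.pow_rpow_inv_natCast hY0.le (by omega)
    have h3 : B ^ p / L ^ (p - 1) = e / 2 := by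
      rw [hLq, hY]
      have : B ^ p ≠ 0 := by positivity
      field_simp
    rw [h3, ← he] at h2
    have h4 : e / 2 ≤ eT π n F Q K L := by linarith
    have h5 : (e / 2) ^ 2 ≤ (eT π n F Q K L) ^ 2 := pow_le_pow_left₀ (by positivity) h4 2
    have h6 : (e / 2) ^ 2 / (2 * L) ≤ (eT π n F Q K L) ^ 2 / (2 * L) :=
      div_le_div_of_nonneg_right h5 (by positivity)
    have hBp : (B ^ p) ^ m = B ^ (m + 1) := by
      rw [← Real.rpow_natCast (B ^ p) m, ← Real.rpow_mul hB.le]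
      have : p * (m : ℝ) = ((m + 1 : ℕ) : ℝ) := by
        rw [hp]; push_cast; field_simp
      rw [this, Real.rpow_natCast]
    have h7 : (e / 2) ^ 2 / (2 * L) = e ^ (m + 2) / (2 ^ (m + 3) * B ^ (m + 1)) := by
      have hY' : Y ^ m = 2 ^ m * B ^ (m + 1) / e ^ m := by
        rw [hY, div_pow, mul_pow, hBp]
      rw [hLdef, hY', div_pow]
      field_simp
      ring
    rw [h7] at h6
    linarith

lemma key_bound_P (m : ℕ) (hm : 1 ≤ m) (P : Matrix S S ℝ) (hπ : ∀ x, 0 ≤ π x)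
    (hπ1 : ∑ x, π x = 1) (hM : GoodP π n F P 1 (1 + 1 / (m : ℝ))) (J : ℕ) :
    (J : ℝ) * (mQ π n F (P ^ (2 ^ J)) 1 / (2 : ℝ) ^ J) ^ (2 * m + 4) ≤ 2 ^ (3 * m + 8) := by
  have hp1 : 1 ≤ 1 + 1 / (m : ℝ) := by
    have : 0 ≤ 1 / (m : ℝ) := by positivity
    linarith
  set w : ℕ → ℕ → ℝ := fun K i => mQ π n F (P ^ (2 ^ i)) K / (2 : ℝ) ^ i with hw
  set ε : ℕ → ℕ → ℝ := fun K i => eQ π n F (P ^ (2 ^ i)) K / (2 : ℝ) ^ i with hε
  have hBpos : ∀ i : ℕ, (0 : ℝ) < (2 : ℝ) ^ i := fun i => by positivity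
  exact seq_bound_deg m w ε
    (by intro i; simp only [hw, mQ_zero, zero_div])
    (by
      intro K i
      have hg := goodP_pow hπ hp1 hM i
      exact ⟨div_nonneg (mQ_nonneg' hπ hg.toE K) (hBpos i).le,
        (div_le_one (hBpos i)).2 (mQ_leP hπ hπ1 hp1 (hBpos i).le hg K)⟩)
    (by
      intro K i
      exact div_nonneg (eQ_nonneg' hπ (goodP_pow hπ hp1 hM i).toE K) (hBpos i).le)
    (by
      intro K i
      have hg := goodP_pow hπ hp1 hM i
      have hd := doublingP m hm hπ hπ1 (hBpos i) hg K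
      have h1 : P ^ (2 ^ (i + 1)) = P ^ (2 ^ i) * P ^ (2 ^ i) := by
        rw [pow_succ 2 i, pow_mul, sq]
      simp only [hw, hε]
      rw [h1, pow_succ' (2 : ℝ) i]
      have hB := hBpos i
      set B : ℝ := (2 : ℝ) ^ i
      set m' := mQ π n F (P ^ (2 ^ i) * P ^ (2 ^ i)) (K + 1)
      set a := mQ π n F (P ^ (2 ^ i)) (K + 1)
      set e := eQ π n F (P ^ (2 ^ i)) K
      have h2 : a / B - (e / B) ^ (m + 2) / 2 ^ (m + 4)
          = (2 * a - e ^ (m + 2) / (2 ^ (m + 3) * B ^ (m + 1))) / (2 * B) := by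
        rw [div_pow]
        field_simp
        ring
      rw [h2]
      exact div_le_div_of_nonneg_right hd (by positivity))
    (by
      intro K i
      have hg := goodP_pow hπ hp1 hM i
      have hd := uncross_exp' hπ hg.toE K
      simp only [hw, hε]
      have hB := hBpos i
      have h2 : 2 * (mQ π n F (P ^ (2 ^ i)) (K + 1) / (2 : ℝ) ^ i)
          - eQ π n F (P ^ (2 ^ i)) K / (2 : ℝ) ^ i
          = (2 * mQ π n F (P ^ (2 ^ i)) (K + 1) - eQ π n F (P ^ (2 ^ i)) K) / (2 : ℝ) ^ i := by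
        ring
      have h3 : mQ π n F (P ^ (2 ^ i)) (K + 2) / (2 : ℝ) ^ i
          + mQ π n F (P ^ (2 ^ i)) K / (2 : ℝ) ^ i
          = (mQ π n F (P ^ (2 ^ i)) (K + 2) + mQ π n F (P ^ (2 ^ i)) K) / (2 : ℝ) ^ i := by
        ring
      rw [h2, h3]
      exact div_le_div_of_nonneg_right hd hB.le)
    J

end main

/-- The estimate under the `p`-energy hypothesis with `p = 1 + 1 / m`, at times `2 ^ J`. -/
theorem energyP_bound (π : S → ℝ) (P : Matrix S S ℝ) (hπ : ∀ x, 0 ≤ π x) (hπ1 : ∑ x, π x = 1)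
    (hP : ∀ x y, 0 ≤ P x y) (hP1 : ∀ x, ∑ y, P x y = 1)
    (hrev : ∀ x y, π x * P x y = π y * P y x) (n : ℕ) (F : S → ℕ → ℝ)
    (m : ℕ) (hm : 1 ≤ m)
    (hF : ∑ x, ∑ y, π x * P x y * (tv n (fun i => F y i - F x i)) ^ (1 + 1 / (m : ℝ)) ≤ 1) (J : ℕ) :
    (J : ℝ) * (∑ x, ∑ y, π x * (P ^ (2 ^ J)) x y * osc n (fun i => F y i - F x i)) ^ (2 * m + 4)
      ≤ 2 ^ (3 * m + 8) * ((2 : ℝ) ^ J) ^ (2 * m + 4) := by
  have hM : GoodP π n F P 1 (1 + 1 / (m : ℝ)) := ⟨hP, hP1, hrev, by simpa using hF⟩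
  have key := key_bound_P m hm P hπ hπ1 hM J
  have hp1 : 1 ≤ 1 + 1 / (m : ℝ) := by
    have : 0 ≤ 1 / (m : ℝ) := by positivity
    linarith
  have hg := goodP_pow hπ hp1 hM J
  have hB : (0 : ℝ) < (2 : ℝ) ^ J := by positivity
  have hE0 : 0 ≤ ∑ x, ∑ y, π x * (P ^ (2 ^ J)) x y * osc n (fun i => F y i - F x i) :=
    Finset.sum_nonneg (fun x _ => Finset.sum_nonneg (fun y _ =>
      mul_nonneg (mul_nonneg (hπ x) (hg.nonneg x y)) (osc_nonneg _ _)))
  have hE1 : ∑ x, ∑ y, π x * (P ^ (2 ^ J)) x y * osc n (fun i => F y i - F x i)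
      ≤ mQ π n F (P ^ (2 ^ J)) 1 :=
    Finset.sum_le_sum (fun x _ => Finset.sum_le_sum (fun y _ =>
      mul_le_mul_of_nonneg_left (osc_le_W _ _) (mul_nonneg (hπ x) (hg.nonneg x y))))
  set ρ := mQ π n F (P ^ (2 ^ J)) 1 / (2 : ℝ) ^ J with hρ
  have hE2 : mQ π n F (P ^ (2 ^ J)) 1 = (2 : ℝ) ^ J * ρ := by
    rw [hρ]
    field_simp
  have hE3 := pow_le_pow_left₀ hE0 (hE1.trans_eq hE2) (2 * m + 4)
  calc (J : ℝ) * (∑ x, ∑ y, π x * (P ^ (2 ^ J)) x y * osc n (fun i => F y i - F x i)) ^ (2 * m + 4)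
      ≤ (J : ℝ) * ((2 : ℝ) ^ J * ρ) ^ (2 * m + 4) :=
        mul_le_mul_of_nonneg_left hE3 (Nat.cast_nonneg _)
    _ = ((J : ℝ) * ρ ^ (2 * m + 4)) * ((2 : ℝ) ^ J) ^ (2 * m + 4) := by ring
    _ ≤ 2 ^ (3 * m + 8) * ((2 : ℝ) ^ J) ^ (2 * m + 4) :=
        mul_le_mul_of_nonneg_right key (by positivity)

/-- The estimate under the `p`-energy hypothesis with `p = 1 + 1 / m`, at all times. -/
theorem energyP_all_times (π : S → ℝ) (P : Matrix S S ℝ) (hπ : ∀ x, 0 ≤ π x) (hπ1 : ∑ x, π x = 1)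
    (hP : ∀ x y, 0 ≤ P x y) (hP1 : ∀ x, ∑ y, P x y = 1)
    (hrev : ∀ x y, π x * P x y = π y * P y x) (n : ℕ) (F : S → ℕ → ℝ)
    (m : ℕ) (hm : 1 ≤ m)
    (hF : ∑ x, ∑ y, π x * P x y * (tv n (fun i => F y i - F x i)) ^ (1 + 1 / (m : ℝ)) ≤ 1)
    (t J : ℕ) (hJ : 4 ^ J ≤ t) :
    (J : ℝ) * (∑ x, ∑ y, π x * (P ^ t) x y * osc n (fun i => F y i - F x i)) ^ (2 * m + 4)
      ≤ 2 ^ (5 * m + 12) * (t : ℝ) ^ (2 * m + 4) := by
  have hM : GoodP π n F P 1 (1 + 1 / (m : ℝ)) := ⟨hP, hP1, hrev, by simpa using hF⟩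
  have hp1 : 1 ≤ 1 + 1 / (m : ℝ) := by
    have : 0 ≤ 1 / (m : ℝ) := by positivity
    linarith
  have hM0 : Good π n (fun _ _ => (0 : ℝ)) P 1 :=
    ⟨hP, hP1, hrev, fun x y _ => by simp [tv]⟩
  set B' : ℝ := ∑ x, ∑ y, tv n (fun i => F y i - F x i) with hB'
  have hsingle : ∀ x y, tv n (fun i => F y i - F x i) ≤ B' := by
    intro x y
    have h1 : tv n (fun i => F y i - F x i) ≤ ∑ y, tv n (fun i => F y i - F x i) :=
      Finset.single_le_sum (f := fun y => tv n (fun i => F y i - F x i))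
        (fun _ _ => tv_nonneg _ _) (Finset.mem_univ y)
    have h2 : ∑ y, tv n (fun i => F y i - F x i) ≤ B' :=
      Finset.single_le_sum (f := fun x => ∑ y, tv n (fun i => F y i - F x i))
        (fun _ _ => Finset.sum_nonneg (fun _ _ => tv_nonneg _ _)) (Finset.mem_univ x)
    exact h1.trans h2
  have hG : ∀ u, Good π n F (P ^ u) B' := by
    intro u
    have g0 := good_pow_all hM0 u
    exact ⟨g0.nonneg, g0.row, g0.rev, fun x y _ => hsingle x y⟩
  set a : ℕ → ℝ := fun u => mQ π n F (P ^ u) 1 with ha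
  have hadd : ∀ u v, a (u + v) ≤ a u + a v := by
    intro u v
    simp only [ha, pow_add]
    exact mQ_mul_le hπ (hG u) (hG v) 1
  have hzero : a 0 ≤ 0 := by
    have g0 := good_pow_all hM0 0
    have hg : Good π n F (P ^ 0) 0 := by
      refine ⟨g0.nonneg, g0.row, g0.rev, ?_⟩
      intro x y h
      rw [pow_zero] at h
      by_cases hxy : x = y
      · subst hxy; simp [tv]
      · exact absurd (Matrix.one_apply_ne hxy) h
    exact mQ_le hπ hπ1 hg 1
  have hone : a 1 ≤ 1 := by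
    have := mQ_leP hπ hπ1 hp1 zero_le_one hM 1
    simpa [ha] using this
  have hle : ∀ u : ℕ, a u ≤ u := by
    intro u
    induction u with
    | zero => simpa using hzero
    | succ u ih =>
      have := hadd u 1
      push_cast
      linarith
  have ha0 : ∀ u, 0 ≤ a u := fun u => mQ_nonneg hπ (hG u) 1
  set d : ℕ := 2 ^ J with hd
  have hdpos : 0 < d := by positivity
  have hdR : (0 : ℝ) < d := by exact_mod_cast hdpos
  have hmulle : ∀ r : ℕ, a (r * d) ≤ r * a d := by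
    intro r
    induction r with
    | zero => simpa using hzero
    | succ r ih =>
      have h1 : (r + 1) * d = r * d + d := by ring
      rw [h1]
      have h2 := hadd (r * d) d
      push_cast
      linarith
  set r : ℕ := t / d with hr
  set s : ℕ := t % d with hs
  have htd : r * d + s = t := by
    rw [hr, hs, mul_comm]
    exact Nat.div_add_mod t d
  have hsd : s < d := Nat.mod_lt _ hdpos
  have hat : a t ≤ r * a d + s := by
    rw [← htd]
    have h1 := hadd (r * d) s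
    have h2 := hmulle r
    have h3 := hle s
    linarith
  set X : ℝ := a d / d with hX
  have hX0 : 0 ≤ X := div_nonneg (ha0 d) hdR.le
  have hadX : a d = d * X := by rw [hX]; field_simp
  have hrd : (r : ℝ) * d ≤ t := by
    have : r * d ≤ t := by omega
    exact_mod_cast this
  have hdd : (d : ℝ) * d ≤ t := by
    have h1 : d * d = 4 ^ J := by
      rw [hd, ← mul_pow]
      norm_num
    have h2 : d * d ≤ t := h1 ▸ hJ
    exact_mod_cast h2
  have hdt : (d : ℝ) ≤ t * (1 / d) := by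
    rw [mul_one_div, le_div_iff₀ hdR]
    exact hdd
  have hsR : (s : ℝ) ≤ d := by exact_mod_cast hsd.le
  have hat2 : a t ≤ t * (X + 1 / d) := by
    have h1 : (r : ℝ) * a d ≤ t * X := by
      rw [hadX, ← mul_assoc]
      exact mul_le_mul_of_nonneg_right hrd hX0
    calc a t ≤ r * a d + s := hat
      _ ≤ t * X + t * (1 / d) := by linarith
      _ = _ := by ring
  have hkey : (J : ℝ) * X ^ (2 * m + 4) ≤ 2 ^ (3 * m + 8) := by
    have := key_bound_P m hm P hπ hπ1 hM J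
    have hcast : ((2 : ℝ) ^ J) = (d : ℝ) := by rw [hd]; push_cast; rfl
    rw [hcast] at this
    exact this
  have hJd : (J : ℝ) * (1 / (d : ℝ)) ^ (2 * m + 4) ≤ 1 := by
    have h1 : (J : ℝ) ≤ d := by
      have : J < 2 ^ J := Nat.lt_two_pow_self
      exact_mod_cast this.le
    have h2 : (1 : ℝ) ≤ d := by exact_mod_cast hdpos
    have h3 : (d : ℝ) ≤ (d : ℝ) ^ (2 * m + 4) := by
      have := pow_le_pow_right₀ h2 (show 1 ≤ 2 * m + 4 by omega)
      simpa using this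
    rw [one_div, inv_pow, ← div_eq_mul_inv, div_le_one (by positivity)]
    exact h1.trans h3
  have hfac : (J : ℝ) * (X + 1 / d) ^ (2 * m + 4) ≤ 2 ^ (5 * m + 12) := by
    have h1 : (X + 1 / (d : ℝ)) ^ (2 * m + 4)
        ≤ 2 ^ (2 * m + 3) * (X ^ (2 * m + 4) + (1 / (d : ℝ)) ^ (2 * m + 4)) :=
      add_pow_le hX0 (by positivity) (2 * m + 4)
    have hJ0 : (0 : ℝ) ≤ J := Nat.cast_nonneg _
    have h2 := mul_le_mul_of_nonneg_left h1 hJ0
    have h3 : (J : ℝ) * (X ^ (2 * m + 4) + (1 / (d : ℝ)) ^ (2 * m + 4))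
        ≤ 2 ^ (3 * m + 8) + 1 := by
      rw [mul_add]
      exact add_le_add hkey hJd
    have h4 : (2 : ℝ) ^ (3 * m + 8) + 1 ≤ 2 ^ (3 * m + 9) := by
      have h5 : (1 : ℝ) ≤ 2 ^ (3 * m + 8) := one_le_pow₀ (by norm_num)
      have h6 : (2 : ℝ) ^ (3 * m + 9) = 2 * 2 ^ (3 * m + 8) := by ring
      linarith
    calc (J : ℝ) * (X + 1 / d) ^ (2 * m + 4)
        ≤ (J : ℝ) * (2 ^ (2 * m + 3) * (X ^ (2 * m + 4) + (1 / (d : ℝ)) ^ (2 * m + 4))) := h2
      _ = 2 ^ (2 * m + 3) * ((J : ℝ) * (X ^ (2 * m + 4) + (1 / (d : ℝ)) ^ (2 * m + 4))) := by ring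
      _ ≤ 2 ^ (2 * m + 3) * 2 ^ (3 * m + 9) :=
          mul_le_mul_of_nonneg_left (h3.trans h4) (by positivity)
      _ = 2 ^ (5 * m + 12) := by ring
  have hg := hG t
  have hE0 : 0 ≤ ∑ x, ∑ y, π x * (P ^ t) x y * osc n (fun i => F y i - F x i) :=
    Finset.sum_nonneg (fun x _ => Finset.sum_nonneg (fun y _ =>
      mul_nonneg (mul_nonneg (hπ x) (hg.nonneg x y)) (osc_nonneg _ _)))
  have hE1 : ∑ x, ∑ y, π x * (P ^ t) x y * osc n (fun i => F y i - F x i) ≤ a t :=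
    Finset.sum_le_sum (fun x _ => Finset.sum_le_sum (fun y _ =>
      mul_le_mul_of_nonneg_left (osc_le_W _ _) (mul_nonneg (hπ x) (hg.nonneg x y))))
  have hE3 := pow_le_pow_left₀ hE0 (hE1.trans hat2) (2 * m + 4)
  calc (J : ℝ) * (∑ x, ∑ y, π x * (P ^ t) x y * osc n (fun i => F y i - F x i)) ^ (2 * m + 4)
      ≤ (J : ℝ) * ((t : ℝ) * (X + 1 / d)) ^ (2 * m + 4) :=
        mul_le_mul_of_nonneg_left hE3 (Nat.cast_nonneg _)
    _ = ((J : ℝ) * (X + 1 / d) ^ (2 * m + 4)) * (t : ℝ) ^ (2 * m + 4) := by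
        have hring : ∀ (A T Y : ℝ), A * (T * Y) ^ (2 * m + 4) = (A * Y ^ (2 * m + 4)) * T ^ (2 * m + 4) := by
          intro A T Y
          rw [mul_pow]
          ring
        exact hring _ _ _
    _ ≤ 2 ^ (5 * m + 12) * (t : ℝ) ^ (2 * m + 4) :=
        mul_le_mul_of_nonneg_right hfac (by positivity)

end Vale.Agent.P125
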