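import Mathlib

namespace Vale.Agent.P125

open Finset

/-- Total variation of the finite sequence `x 0, ..., x n`. -/
noncomputable def tv (n : ℕ) (x : ℕ → ℝ) : ℝ := ∑ i ∈ range n, |x (i + 1) - x i|

/-- Oscillation of the finite sequence `x 0, ..., x n`: the largest value of `|x j - x i|`. -/
noncomputable def osc (n : ℕ) (x : ℕ → ℝ) : ℝ :=
  (range (n + 1) ×ˢ range (n + 1)).sup' ⟨(0, 0), by simp⟩ (fun p => |x p.2 - x p.1|)

/-- Signed sum over a list of intervals. -/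
def val (x : ℕ → ℝ) : List (ℕ × ℕ × Bool) → ℝ
  | [] => 0
  | (s, e, b) :: l => (if b then x e - x s else x s - x e) + val x l

/-- Ordered intervals inside `[q, n]`. -/
def Valid (n : ℕ) : ℕ → List (ℕ × ℕ × Bool) → Prop
  | _, [] => True
  | q, (s, e, _) :: l => q ≤ s ∧ s ≤ e ∧ e ≤ n ∧ Valid n e l

lemma Valid.mono {n q q' : ℕ} (h : q ≤ q') : ∀ {l}, Valid n q' l → Valid n q l
  | [], _ => trivial
  | (_, _, _) :: _, ⟨h1, h2, h3, h4⟩ => ⟨h.trans h1, h2, h3, h4⟩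

lemma abs_sub_le_sum (x : ℕ → ℝ) {s e : ℕ} (h : s ≤ e) :
    |x e - x s| ≤ ∑ i ∈ Ico s e, |x (i + 1) - x i| := by
  induction e, h using Nat.le_induction with
  | base => simp
  | succ e he ih =>
    rw [Finset.sum_Ico_succ_top he]
    have : x (e + 1) - x s = (x e - x s) + (x (e + 1) - x e) := by ring
    rw [this]
    exact (abs_add_le _ _).trans (by linarith)

lemma val_le_sum (x : ℕ → ℝ) (n : ℕ) : ∀ (l : List (ℕ × ℕ × Bool)) (q : ℕ), Valid n q l →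
    val x l ≤ ∑ i ∈ Ico q n, |x (i + 1) - x i|
  | [], q, _ => by
    simp only [val]
    exact Finset.sum_nonneg (fun _ _ => abs_nonneg _)
  | (s, e, b) :: l, q, ⟨h1, h2, h3, h4⟩ => by
    have ih := val_le_sum x n l e h4
    have h5 : (if b then x e - x s else x s - x e) ≤ |x e - x s| := by
      split_ifs
      · exact le_abs_self _
      · rw [abs_sub_comm]; exact le_abs_self _
    have h6 := abs_sub_le_sum x h2
    have h7 : ∑ i ∈ Ico q s, |x (i + 1) - x i| + ∑ i ∈ Ico s e, |x (i + 1) - x i|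
        = ∑ i ∈ Ico q e, |x (i + 1) - x i| := Finset.sum_Ico_consecutive _ h1 h2
    have h8 : ∑ i ∈ Ico q e, |x (i + 1) - x i| + ∑ i ∈ Ico e n, |x (i + 1) - x i|
        = ∑ i ∈ Ico q n, |x (i + 1) - x i| := Finset.sum_Ico_consecutive _ (h1.trans h2) h3
    have h9 : 0 ≤ ∑ i ∈ Ico q s, |x (i + 1) - x i| := Finset.sum_nonneg (fun _ _ => abs_nonneg _)
    simp only [val]
    linarith

lemma val_le_tv (x : ℕ → ℝ) (n : ℕ) {l : List (ℕ × ℕ × Bool)} (h : Valid n 0 l) :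
    val x l ≤ tv n x := by
  have := val_le_sum x n l 0 h
  rwa [← Finset.range_eq_Ico] at this

lemma tv_nonneg (n : ℕ) (x : ℕ → ℝ) : 0 ≤ tv n x :=
  Finset.sum_nonneg (fun _ _ => abs_nonneg _)

/-- Valid lists of a given length. -/
def Ls (n K : ℕ) : Set (List (ℕ × ℕ × Bool)) := {l | Valid n 0 l ∧ l.length = K}

/-- Valid lists of length `K + 1` with head sign `b`. -/
def Hd (n K : ℕ) (b : Bool) : Set (List (ℕ × ℕ × Bool)) :=
  {l | Valid n 0 l ∧ l.length = K + 1 ∧ ∃ s e r, l = (s, e, b) :: r}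

/-- Largest signed sum with `K` ordered intervals. -/
noncomputable def W (n K : ℕ) (x : ℕ → ℝ) : ℝ := sSup (val x '' Ls n K)

/-- The same with `K + 1` intervals and first sign positive. -/
noncomputable def Pg (n K : ℕ) (x : ℕ → ℝ) : ℝ := sSup (val x '' Hd n K true)

/-- The same with `K + 1` intervals and first sign negative. -/
noncomputable def Ng (n K : ℕ) (x : ℕ → ℝ) : ℝ := sSup (val x '' Hd n K false)

lemma degen_valid (n : ℕ) (K : ℕ) (b : Bool) :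
    Valid n 0 (List.replicate K ((0, 0, b) : ℕ × ℕ × Bool)) := by
  induction K with
  | zero => trivial
  | succ K ih =>
    simp only [List.replicate_succ]
    exact ⟨le_rfl, le_rfl, Nat.zero_le _, ih⟩

lemma degen_val (x : ℕ → ℝ) (K : ℕ) (b : Bool) :
    val x (List.replicate K ((0, 0, b) : ℕ × ℕ × Bool)) = 0 := by
  induction K with
  | zero => rfl
  | succ K ih =>
    simp only [List.replicate_succ, val, ih]
    cases b <;> simp

lemma bdd_Ls (n K : ℕ) (x : ℕ → ℝ) : BddAbove (val x '' Ls n K) :=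
  ⟨tv n x, by rintro _ ⟨l, hl, rfl⟩; exact val_le_tv x n hl.1⟩

lemma bdd_Hd (n K : ℕ) (b : Bool) (x : ℕ → ℝ) : BddAbove (val x '' Hd n K b) :=
  ⟨tv n x, by rintro _ ⟨l, hl, rfl⟩; exact val_le_tv x n hl.1⟩

lemma ne_Ls (n K : ℕ) (x : ℕ → ℝ) : (val x '' Ls n K).Nonempty :=
  ⟨_, _, ⟨degen_valid n K true, by simp⟩, rfl⟩

lemma degen_mem_Hd (n K : ℕ) (b : Bool) :
    ((0, 0, b) :: List.replicate K ((0, 0, true) : ℕ × ℕ × Bool)) ∈ Hd n K b :=
  ⟨⟨le_rfl, le_rfl, Nat.zero_le _, degen_valid n K true⟩, by simp, _, _, _, rfl⟩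

lemma ne_Hd (n K : ℕ) (b : Bool) (x : ℕ → ℝ) : (val x '' Hd n K b).Nonempty :=
  ⟨_, _, degen_mem_Hd n K b, rfl⟩

lemma W_nonneg (n K : ℕ) (x : ℕ → ℝ) : 0 ≤ W n K x := by
  refine le_csSup_of_le (bdd_Ls n K x) ⟨_, ⟨degen_valid n K true, by simp⟩, rfl⟩ ?_
  rw [degen_val]

lemma Hd_zero (n K : ℕ) (b : Bool) (x : ℕ → ℝ) : 0 ≤ sSup (val x '' Hd n K b) := by
  refine le_csSup_of_le (bdd_Hd n K b x) ⟨_, degen_mem_Hd n K b, rfl⟩ ?_
  simp only [val]
  rw [degen_val]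
  cases b <;> simp

lemma Pg_nonneg (n K : ℕ) (x : ℕ → ℝ) : 0 ≤ Pg n K x := Hd_zero n K true x
lemma Ng_nonneg (n K : ℕ) (x : ℕ → ℝ) : 0 ≤ Ng n K x := Hd_zero n K false x

lemma W_le_tv (n K : ℕ) (x : ℕ → ℝ) : W n K x ≤ tv n x :=
  csSup_le (ne_Ls n K x) (by rintro _ ⟨l, hl, rfl⟩; exact val_le_tv x n hl.1)

lemma Pg_le_tv (n K : ℕ) (x : ℕ → ℝ) : Pg n K x ≤ tv n x :=
  csSup_le (ne_Hd n K true x) (by rintro _ ⟨l, hl, rfl⟩; exact val_le_tv x n hl.1)

lemma Ng_le_tv (n K : ℕ) (x : ℕ → ℝ) : Ng n K x ≤ tv n x :=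
  csSup_le (ne_Hd n K false x) (by rintro _ ⟨l, hl, rfl⟩; exact val_le_tv x n hl.1)

lemma W_zero (n : ℕ) (x : ℕ → ℝ) : W n 0 x = 0 := by
  refine le_antisymm (csSup_le (ne_Ls n 0 x) ?_) (W_nonneg n 0 x)
  rintro _ ⟨l, hl, rfl⟩
  have : l = [] := List.length_eq_zero_iff.mp hl.2
  subst this
  simp [val]

lemma W_succ (n K : ℕ) (x : ℕ → ℝ) : W n (K + 1) x = max (Pg n K x) (Ng n K x) := by
  apply le_antisymm
  · refine csSup_le (ne_Ls n (K + 1) x) ?_
    rintro _ ⟨l, hl, rfl⟩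
    match l, hl with
    | (s, e, b) :: r, hl =>
      cases b
      · exact le_max_of_le_right (le_csSup (bdd_Hd n K false x)
          ⟨_, ⟨hl.1, hl.2, s, e, r, rfl⟩, rfl⟩)
      · exact le_max_of_le_left (le_csSup (bdd_Hd n K true x)
          ⟨_, ⟨hl.1, hl.2, s, e, r, rfl⟩, rfl⟩)
  · refine max_le ?_ ?_
    · refine csSup_le (ne_Hd n K true x) ?_
      rintro _ ⟨l, hl, rfl⟩
      exact le_csSup (bdd_Ls n (K + 1) x) ⟨_, ⟨hl.1, hl.2.1⟩, rfl⟩
    · refine csSup_le (ne_Hd n K false x) ?_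
      rintro _ ⟨l, hl, rfl⟩
      exact le_csSup (bdd_Ls n (K + 1) x) ⟨_, ⟨hl.1, hl.2.1⟩, rfl⟩

/-- The sign change on all intervals. -/
def flipL : List (ℕ × ℕ × Bool) → List (ℕ × ℕ × Bool)
  | [] => []
  | (s, e, b) :: l => (s, e, !b) :: flipL l

lemma flipL_valid (n : ℕ) : ∀ (l : List (ℕ × ℕ × Bool)) (q : ℕ), Valid n q l → Valid n q (flipL l)
  | [], _, _ => trivial
  | (_, _, _) :: l, _, ⟨h1, h2, h3, h4⟩ => ⟨h1, h2, h3, flipL_valid n l _ h4⟩

lemma flipL_length : ∀ (l : List (ℕ × ℕ × Bool)), (flipL l).length = l.length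
  | [] => rfl
  | (_, _, _) :: l => by simp [flipL, flipL_length l]

lemma val_sub (V' V : ℕ → ℝ) : ∀ (l : List (ℕ × ℕ × Bool)),
    val (fun i => V' i - V i) l = val V' l + val V (flipL l)
  | [] => by simp [val, flipL]
  | (s, e, b) :: l => by
    simp only [val, flipL, val_sub V' V l]
    cases b <;> simp <;> ring

/-- The pair bound (A). -/
lemma pair_bound (n K : ℕ) (V' V : ℕ → ℝ) :
    W n (K + 1) (fun i => V' i - V i) ≤
      max (Pg n K V' + Ng n K V) (Ng n K V' + Pg n K V) := by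
  refine csSup_le (ne_Ls n (K + 1) _) ?_
  rintro _ ⟨l, hl, rfl⟩
  rw [val_sub]
  match l, hl with
  | (s, e, b) :: r, hl =>
    have hf : flipL ((s, e, b) :: r) = (s, e, !b) :: flipL r := rfl
    have hv := flipL_valid n _ 0 hl.1
    have hlen := flipL_length ((s, e, b) :: r)
    cases b
    · refine le_max_of_le_right (add_le_add ?_ ?_)
      · exact le_csSup (bdd_Hd n K false V') ⟨_, ⟨hl.1, hl.2, s, e, r, rfl⟩, rfl⟩
      · exact le_csSup (bdd_Hd n K true V) ⟨_, ⟨hv, hlen.trans hl.2, s, e, flipL r, hf⟩, rfl⟩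
    · refine le_max_of_le_left (add_le_add ?_ ?_)
      · exact le_csSup (bdd_Hd n K true V') ⟨_, ⟨hl.1, hl.2, s, e, r, rfl⟩, rfl⟩
      · exact le_csSup (bdd_Hd n K false V) ⟨_, ⟨hv, hlen.trans hl.2, s, e, flipL r, hf⟩, rfl⟩

/-- Combinatorial uncrossing of a positive-headed and a negative-headed list. -/
lemma uncross (n K : ℕ) (x : ℕ → ℝ) (s e s' e' : ℕ) (Fr Gr : List (ℕ × ℕ × Bool))
    (hF : Valid n 0 ((s, e, true) :: Fr)) (hG : Valid n 0 ((s', e', false) :: Gr))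
    (hFl : Fr.length = K) (hGl : Gr.length = K) :
    ∃ A B, A ∈ Ls n (K + 2) ∧ B ∈ Ls n K ∧
      val x ((s, e, true) :: Fr) + val x ((s', e', false) :: Gr) = val x A + val x B := by
  obtain ⟨h1, h2, h3, h4⟩ := hF
  obtain ⟨h1', h2', h3', h4'⟩ := hG
  by_cases hc1 : e ≤ s'
  · refine ⟨(s, e, true) :: (s', e', false) :: Gr, Fr,
      ⟨⟨h1, h2, h3, hc1, h2', h3', h4'⟩, by simp [hGl]⟩,
      ⟨h4.mono (Nat.zero_le _), hFl⟩, ?_⟩
    simp [val]; ring
  by_cases hc2 : e' ≤ s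
  · refine ⟨(s', e', false) :: (s, e, true) :: Fr, Gr,
      ⟨⟨h1', h2', h3', hc2, h2, h3, h4⟩, by simp [hFl]⟩,
      ⟨h4'.mono (Nat.zero_le _), hGl⟩, ?_⟩
    simp [val]; ring
  push Not at hc1 hc2
  rcases le_total s s' with hss | hss
  · rcases le_total e e' with hee | hee
    · refine ⟨(s, s', true) :: (e, e', false) :: Gr, Fr,
        ⟨⟨h1, hss, by omega, by omega, hee, h3', h4'⟩, by simp [hGl]⟩,
        ⟨h4.mono (Nat.zero_le _), hFl⟩, ?_⟩
      simp [val]; ring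
    · refine ⟨(s, s', true) :: (e', e, true) :: Fr, Gr,
        ⟨⟨h1, hss, by omega, by omega, hee, h3, h4⟩, by simp [hFl]⟩,
        ⟨h4'.mono (Nat.zero_le _), hGl⟩, ?_⟩
      simp [val]; ring
  · rcases le_total e e' with hee | hee
    · refine ⟨(s', s, false) :: (e, e', false) :: Gr, Fr,
        ⟨⟨h1', hss, by omega, by omega, hee, h3', h4'⟩, by simp [hGl]⟩,
        ⟨h4.mono (Nat.zero_le _), hFl⟩, ?_⟩
      simp [val]; ring
    · refine ⟨(s', s, false) :: (e', e, true) :: Fr, Gr,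
        ⟨⟨h1', hss, by omega, by omega, hee, h3, h4⟩, by simp [hFl]⟩,
        ⟨h4'.mono (Nat.zero_le _), hGl⟩, ?_⟩
      simp [val]; ring

/-- Uncrossing (B) for the functionals. -/
lemma uncross_W (n K : ℕ) (x : ℕ → ℝ) :
    Pg n K x + Ng n K x ≤ W n (K + 2) x + W n K x := by
  have key : ∀ a ∈ val x '' Hd n K true, ∀ b ∈ val x '' Hd n K false,
      a + b ≤ W n (K + 2) x + W n K x := by
    rintro _ ⟨l, ⟨hl1, hl2, s, e, Fr, rfl⟩, rfl⟩ _ ⟨l', ⟨hl1', hl2', s', e', Gr, rfl⟩, rfl⟩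
    obtain ⟨A, B, hA, hB, hv⟩ := uncross n K x s e s' e' Fr Gr hl1 hl1'
      (by simpa using hl2) (by simpa using hl2')
    rw [hv]
    exact add_le_add (le_csSup (bdd_Ls n _ x) ⟨_, hA, rfl⟩) (le_csSup (bdd_Ls n _ x) ⟨_, hB, rfl⟩)
  have h1 : Pg n K x ≤ W n (K + 2) x + W n K x - Ng n K x := by
    refine csSup_le (ne_Hd n K true x) (fun a ha => ?_)
    have : Ng n K x ≤ W n (K + 2) x + W n K x - a := by
      refine csSup_le (ne_Hd n K false x) (fun b hb => ?_)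
      have := key a ha b hb
      linarith
    linarith
  linarith

lemma abs_sub_le_W (n : ℕ) (x : ℕ → ℝ) {s e : ℕ} (h : s ≤ e) (he : e ≤ n) :
    |x e - x s| ≤ W n 1 x := by
  rcases abs_cases (x e - x s) with ⟨h1, _⟩ | ⟨h1, _⟩
  · rw [h1]
    refine le_csSup_of_le (bdd_Ls n 1 x) ⟨[(s, e, true)], ⟨⟨Nat.zero_le _, h, he, trivial⟩, rfl⟩, rfl⟩ ?_
    simp [val]
  · rw [h1]
    refine le_csSup_of_le (bdd_Ls n 1 x) ⟨[(s, e, false)], ⟨⟨Nat.zero_le _, h, he, trivial⟩, rfl⟩, rfl⟩ ?_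
    simp [val]

lemma osc_le_W (n : ℕ) (x : ℕ → ℝ) : osc n x ≤ W n 1 x := by
  refine Finset.sup'_le _ _ ?_
  rintro ⟨i, j⟩ hp
  simp only [Finset.mem_product, Finset.mem_range] at hp
  rcases le_total i j with h | h
  · exact abs_sub_le_W n x h (by omega)
  · rw [abs_sub_comm]
    exact abs_sub_le_W n x h (by omega)

lemma osc_nonneg (n : ℕ) (x : ℕ → ℝ) : 0 ≤ osc n x := by
  have hm : ((0 : ℕ), (0 : ℕ)) ∈ range (n + 1) ×ˢ range (n + 1) := by simp
  exact le_trans (abs_nonneg _) (Finset.le_sup' (fun p : ℕ × ℕ => |x p.2 - x p.1|) hm)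

lemma tv_sub_add (n : ℕ) (a b c : ℕ → ℝ) :
    tv n (fun i => a i - c i) ≤ tv n (fun i => a i - b i) + tv n (fun i => b i - c i) := by
  unfold tv
  rw [← Finset.sum_add_distrib]
  refine Finset.sum_le_sum (fun i _ => ?_)
  have : a (i + 1) - c (i + 1) - (a i - c i)
      = (a (i + 1) - b (i + 1) - (a i - b i)) + (b (i + 1) - c (i + 1) - (b i - c i)) := by ring
  rw [this]
  exact abs_add_le _ _

end Vale.Agent.P125
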